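import Vale.Agent.P146.Contact

/-! The cavity step. -/

set_option linter.all false

namespace Vale.Agent.P146

open MeasureTheory ProbabilityTheory Real Finset Filter Topology Vale.Agent.P146M

noncomputable section

variable {k N : ℕ} {b c β : ℝ} {u v : ℕ → ℝ}

lemma meas2 {I : Type} (f : Cf N → Cf N → ℝ) :
    Measurable fun p : St I (Cf N) × St I (Cf N) => f p.1.1 p.2.1 :=
  (Measurable.of_discrete (f := fun z : Cf N × Cf N => f z.1 z.2)).comp
    (measurable_fst.fst.prodMk measurable_snd.fst)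

lemma int2 {I : Type} (μ : Measure (St I (Cf N) × St I (Cf N))) [IsFiniteMeasure μ]
    (f : Cf N → Cf N → ℝ) : Integrable (fun p => f p.1.1 p.2.1) μ :=
  Integrable.of_bound (meas2 f).aestronglyMeasurable _ (ae_of_all _ fun p => single_le_sum
    (f := fun z : Cf N × Cf N => ‖f z.1 z.2‖) (fun _ _ => norm_nonneg _) (mem_univ (p.1.1, p.2.1)))

lemma abs_R (σ τ : Cf N) : |dot σ τ / N| ≤ 1 := by
  rw [abs_div, Nat.abs_cast]
  exact div_le_one_of_le₀ (abs_dot σ τ) N.cast_nonneg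

abbrev JC (N : ℕ) : Type := (Pr N ⊕ Fin N) ⊕ (Fin N ⊕ Unit)

def tl (σ : Cf (N + 1)) : Cf N := fun i => σ i.succ

def xC (σ : Cf (N + 1)) : JC N → ℝ :=
  Sum.elim (xS (tl σ)) (Sum.elim (fun i => sg σ 0 * sg (tl σ) i) (xB (σ 0)))

def wC (N : ℕ) (b : ℝ) (u : ℕ → ℝ) (c : ℝ) (v : ℕ → ℝ) (j : ℕ) : JC N → ℝ :=
  Sum.elim (wK N b u j) (Sum.elim (wL _ c 0 j) fun _ => v j)

lemma sg_C : Sg (νN (N + 1)) (xC (N := N)) := ⟨inferInstance, Measurable.of_discrete, fun σ i => by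
  rcases i with i | i | i
  exacts [sg_S.sq _ i, by simp [xC, mul_pow, sg_sq], xB_sq _]⟩

lemma wC_nonneg (hb : 0 ≤ b) (hc : 0 ≤ c) {j : ℕ} (hu : 0 ≤ u j) (hv : 0 ≤ v j) (i : JC N) :
    0 ≤ wC N b u c v j i := by
  rcases i with i | i | i
  exacts [wK_nonneg hb hu i, wL_nonneg hc _ _ i, hv]

lemma Kf_wC (l : ℕ) (σ τ : Cf (N + 1)) : Kf xC (wC N b u c v) l σ τ =
    (if 0 < l then b else 0) * ((dot (tl σ) (tl τ) ^ 2 - N) / 2) +
      (∑ j ∈ range l, u j) * dot (tl σ) (tl τ) + ((if 0 < l then c else 0) * dot (tl σ) (tl τ) +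
        ∑ j ∈ range l, v j) * (sg σ 0 * sg τ 0) := by
  rw [← Kf_wK]
  simp only [Kf, Fintype.sum_sum_type, wC, xC, Sum.elim_inl, Sum.elim_inr, add_right_inj, wL,
    sum_ite_eq', mem_range, univ_unique, sum_singleton, dot, add_mul]
  refine congrArg₂ _ ?_ rfl
  rw [mul_sum, sum_mul]
  exact sum_congr rfl fun _ _ => by ring

lemma tot_wC (hk : 0 < k) : tot (wC N b u c v) k =
    (N ^ 2 - N) / 2 * b + N * ∑ j ∈ range k, u j + (N * c + ∑ j ∈ range k, v j) := by
  rw [← tot_wK hk]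
  simp [tot, wC, wL, hk]

lemma mp_tl : MeasurePreserving (fun σ : Cf (N + 1) => (tl σ, σ 0)) (νN (N + 1))
    ((νN N).prod νB) :=
  Measure.measurePreserving_swap.comp (measurePreserving_piFinSuccAbove (fun _ => νB) 0)

lemma Yv_wC (hk : 0 < k) : (Sp xC).Yv k (νN (N + 1)) (wC N b u 0 v) =
    FK k N b u + (Sp xB).Yv k νB fun j _ => v j := by
  rw [FK, Rg.Yv, Rg.Yv, Rg.Yv, ← YY_add2 hk (e := Sum.inl) (e2 := fun i => (.inr (.inr i) : JC N))
    mp_tl (fun a b h => by rcases a with a | a <;> rcases b with b | b <;> simp_all)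
    (sg_S.lin hk _) (Rg.lin_Hv (sp_ok spin_B le_rfl) hk _)]
  congr 1 with s
  simp [GradAux.Hv_Sp, wC, xC, wL, pull, sum_add_distrib]

/-- transfer of the synchronisation -/
lemma transfer (hk : 0 < k) (hb : 0 ≤ b) (hc : 0 ≤ c) (hu : ∀ j, 0 ≤ u j) (hv : ∀ j, 0 ≤ v j)
    {V : ℝ} (hV : N * c + ∑ j ∈ range k, v j ≤ V) {l : ℕ} (hl : l < k) {q θ θ' L : ℝ}
    (hq : |q| ≤ 1) (hθ : 0 < θ) (hθ' : 0 < θ') (hL : 1 ≤ L) :
    ∫ p, |dot (tl p.1.1) (tl p.2.1) / N - q| ∂pp k (νN (N + 1)) ((Sp xC).Hv k (wC N b u c v)) l ≤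
      4 * exp (8 * V) * (θ + (L ^ 4 * ((∫ p, (Ro p - q) ^ 2
        ∂pp k (νN N) ((Sp xS).Hv k (wK N b u)) l) / θ' + θ') + 2 * exp (8 * V) / L) / θ) := by
  have hY := gs_ok (I := JC N) (ν := νN (N + 1)) hk
  have hA := moment sg_C hk (fun i => i.isRight = true) (w := wC N b u c v) (w0 := wC N b u 0 0)
    (fun j _ => wC_nonneg hb hc (hu j) (hv j))
    (fun j i => by rcases i with i | i | i <;> simp [wC, wL]) (V := V)
    (by simpa [wC, wL, sum_add_distrib, hk] using hV)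
  have h := Sys.DLpr hY gs_mono (sg_C.lin hk (wC N b u 0 0)) (sg_C.lin hk (wC N b u c v))
    (meas2 fun σ τ => |dot (tl σ) (tl τ) / N - q| / 2) (fun _ => by positivity) (fun p => by
      linarith [abs_sub (dot (tl p.1.1) (tl p.2.1) / N) q, abs_R (tl p.1.1) (tl p.2.1)])
    l (k + 1 - l) 0 (s0 _ _) hL (by rw [add_tsub_cancel_of_le (by omega : l ≤ k + 1)]; exact hA)
    (A := 2 * exp (8 * V))
  have hφ : MeasurePreserving tl (νN (N + 1)) (νN N) := measurePreserving_fst.comp mp_tl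
  have e := pp_pull hk hφ (e := (Sum.inl : _ → JC N)) Sum.inl_injective (sg_S.lin hk (wK N b u))
    hl.le
  rw [← Hv_pull (x := xS) (x' := xC) (φ := tl) (w := wK N b u) (w' := wC N b u 0 0) Sum.inl_injective (fun _ _ => rfl)
    (fun _ _ _ => rfl) fun j _ i hi => by rcases i with i | i | i <;> simp [wC, wL] at hi ⊢] at e
  have := pp_prob hk (sg_C.lin hk (wC N b u 0 0)) l
  have m1 := measurable_pull (e := (Sum.inl : _ → JC N)) hφ.measurable
  rw [← e, integral_map (f := fun p => (Ro p - q) ^ 2) (m1.prodMap m1).aemeasurable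
    (meas2 fun σ τ => (dot σ τ / N - q) ^ 2).aestronglyMeasurable]
  have h2 := integral_mono (int2 (pp k (νN (N + 1)) ((Sp xC).Hv k (wC N b u 0 0)) l)
    fun σ τ => |dot (tl σ) (tl τ) / N - q| / 2) (((int2 _ fun σ τ =>
      (dot (tl σ) (tl τ) / N - q) ^ 2).div_const θ').add (integrable_const θ')) fun p => by
      simp only [Pi.add_apply]
      rw [← sq_abs, ← sub_le_iff_le_add, le_div_iff₀ hθ']
      nlinarith [sq_nonneg (|dot (tl p.1.1) (tl p.2.1) / N - q| - θ'), sq_nonneg θ']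
  simp only [Pi.add_apply] at h2
  rw [integral_add ((int2 _ fun σ τ => (dot (tl σ) (tl τ) / N - q) ^ 2).div_const θ')
    (integrable_const _), integral_div θ', integral_const, probReal_univ, one_smul] at h2
  rw [integral_div, div_le_iff₀ zero_lt_two] at h
  refine h.trans ?_
  rw [show ∀ x, 2 * exp (8 * V) * x * 2 = 4 * exp (8 * V) * x from fun _ => by ring]
  refine mul_le_mul_of_nonneg_left ((sqrt_le_sqrt (add_le_add_left
    (mul_le_mul_of_nonneg_left h2 (by positivity)) _)).trans (sqrt_le_iff.2 ⟨?_, ?_⟩))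
    (by positivity)
  all_goals
    have h3 : 0 ≤ ∫ p, (dot (tl p.1.1) (tl p.2.1) / N - q) ^ 2
      ∂pp k (νN (N + 1)) ((Sp xC).Hv k (wC N b u 0 0)) l := integral_nonneg fun _ => sq_nonneg _
    simp only [Ro, pull, Prod.map_fst, Prod.map_snd]
  · positivity
  · generalize hz : L ^ 4 * _ + _ = z
    have z0 : 0 ≤ z := by rw [← hz]; positivity
    have : θ * (z / θ) = z := by field_simp
    nlinarith [sq_nonneg θ, sq_nonneg (z / θ)]

lemma int_Kf2 {H : St (JC N) (Cf (N + 1)) → ℝ} (hk : 0 < k) (hH : (GS k _ (νN (N + 1))).Lin H)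
    {w : ℕ → JC N → ℝ} {l : ℕ} {a d q : ℝ}
    (h : ∀ σ τ, Kf xC w l σ τ ≤ a + d * |dot (tl σ) (tl τ) / N - q|) :
    ∫ p, Kf xC w l p.1.1 p.2.1 ∂pp k (νN (N + 1)) H l ≤
      a + d * ∫ p, |dot (tl p.1.1) (tl p.2.1) / N - q| ∂pp k (νN (N + 1)) H l := by
  have := pp_prob hk hH l
  have i1 := (int2 (pp k (νN (N + 1)) H l) fun σ τ => |dot (tl σ) (tl τ) / N - q|).const_mul d
  have h2 := integral_mono (int2 (pp k (νN (N + 1)) H l) (Kf xC w l))
    ((integrable_const a).add i1) fun p => h _ _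
  simp only [Pi.add_apply] at h2
  rwa [integral_add (integrable_const a) i1, integral_const, probReal_univ, one_smul,
    integral_const_mul] at h2

lemma cmpC (hk : 0 < k) {b' : ℝ} (b0' : 0 ≤ b') (a6 : (b - b') * N = b') (hN : 0 < N)
    (hu : ∀ j, 0 ≤ u j) :
    (Sp xC).Yv k (νN (N + 1)) (wC N b' u b 0) - b' ≤ FK k (N + 1) b' u := by
  have hN' : (1 : ℝ) ≤ N := by exact_mod_cast hN
  have hk' : (0 : ℝ) < k := by exact_mod_cast hk
  have a7 : 0 ≤ b - b' := by nlinarith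
  have s4 := cmp2 sg_C sg_S hk (w := wC N b' u b 0) (w' := wK (N + 1) b' u)
    (fun j _ => wC_nonneg b0' (by linarith) (hu j) le_rfl) (fun j _ => wK_nonneg b0' (hu j))
    (fun _ => b' + ∑ j ∈ range k, u j) fun l hl σ τ => by
      rw [Kf_wC, Kf_wK, show dot σ τ = sg σ 0 * sg τ 0 + dot (tl σ) (tl τ) from
        Fin.sum_univ_succ _]
      have e1 : |sg σ 0 * sg τ 0| = 1 := by simp [abs_mul, sg_1.abs]
      have a5 : |dot (tl σ) (tl τ) * (sg σ 0 * sg τ 0)| ≤ N := by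
        rw [abs_mul, e1, mul_one]; exact abs_dot _ _
      have a2 : b' * (sg σ 0 * sg τ 0) ^ 2 = b' := by rw [← sq_abs, e1, one_pow, mul_one]
      have a3 := sum_le_sum_of_subset_of_nonneg (range_mono hl.le) fun j _ _ => hu j
      have a4 := mul_le_mul_of_nonneg_left (abs_le.1 e1.le).2 (sum_nonneg (s := range l)
        fun j _ => hu j)
      have a8 := mul_le_mul_of_nonneg_left (abs_le.1 a5).1 a7
      simp only [Pi.zero_apply, sum_const_zero, add_zero]
      push_cast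
      split_ifs <;> linarith
  rw [tot_wC hk, tot_wK hk, sum_const, card_range, nsmul_eq_mul,
    show ∀ x : ℝ, k * x / (2 * k) = x / 2 from fun _ => by field_simp] at s4
  simp only [Pi.zero_apply, sum_const_zero] at s4
  push_cast at s4
  unfold FK
  linarith

lemma kappa {B n : ℝ} (hb : 0 < B) (hn : 1 ≤ n) : ∃ κ, κ = (√(B / n) - √(B / (n + 1))) * √(B / n) ∧
    0 ≤ κ ∧ κ * (2 * n ^ 2) ≤ B := by
  have h1 : B / (n + 1) ≤ B / n := div_le_div_of_nonneg_left hb.le (by linarith) (by linarith)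
  refine ⟨_, rfl, mul_nonneg (sub_nonneg.2 (sqrt_le_sqrt h1)) (sqrt_nonneg _), ?_⟩
  have h2 : B / n * (1 - 1 / (2 * n)) ≤ √(B / (n + 1) * (B / n)) := le_sqrt_of_sq_le (by
    rw [← sub_nonneg, show B / (n + 1) * (B / n) - (B / n * (1 - 1 / (2 * n))) ^ 2 =
      B ^ 2 * (3 * n - 1) / (4 * n ^ 4 * (n + 1)) by field_simp; ring]
    have : (0 : ℝ) ≤ 3 * n - 1 := by linarith
    positivity)
  rw [sub_mul, mul_self_sqrt (by positivity), ← sqrt_mul (by positivity),
    ← le_div_iff₀ (by positivity),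
    show B / (2 * n ^ 2) = B / n - B / n * (1 - 1 / (2 * n)) by field_simp; ring]
  linarith

theorem cavity (hβ : 0 < β) (hk : 0 < k) (hN : 0 < N) (hu : ∀ j, 0 ≤ u j) {η θ θ' L : ℝ}
    (hθ : 0 < θ) (hθ' : 0 < θ') (hL : 1 ≤ L) (hη : (1 / (k : ℝ)) * ∑ l ∈ range k,
      ∫ p, (Ro p - ∫ p, Ro p ∂pp k (νN N) ((Sp xS).Hv k (wK N (β ^ 2 / N) u)) l) ^ 2
        ∂pp k (νN N) ((Sp xS).Hv k (wK N (β ^ 2 / N) u)) l ≤ η) :
    ∃ r, AdmR r ∧ (∀ l, r l ≤ β ^ 2) ∧ FK k N (β ^ 2 / N) u + PK β k r - β ^ 2 / (N + 1) -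
      β ^ 2 * (4 * exp (8 * β ^ 2) * (θ + (L ^ 4 * (η / θ' + θ') + 2 * exp (8 * β ^ 2) / L) / θ)) ≤
      FK k (N + 1) (β ^ 2 / (N + 1)) u := by
  have hk' : (0 : ℝ) < k := by exact_mod_cast hk
  have hN' : (1 : ℝ) ≤ N := by exact_mod_cast hN
  have hb : 0 < β ^ 2 := by positivity
  set b := β ^ 2 / N with hb1
  set b' := β ^ 2 / (N + 1) with hb2
  have b0 : 0 ≤ b := by positivity
  have b0' : 0 ≤ b' := by positivity
  have eb : N * b = β ^ 2 := by rw [hb1]; field_simp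
  set H0 := (Sp xS).Hv k (wK N b u)
  have hH : (GS k _ (νN N)).Lin H0 := sg_S.lin hk _
  set q : ℕ → ℝ := fun l => ∫ p, Ro p ∂pp k (νN N) H0 l
  have eq : ∀ l, q l = (∑ i, ∫ p, sg p.1.1 i * sg p.2.1 i ∂pp k (νN N) H0 l) / N := fun l => by
    simpa [ov, q, Ro, dot] using GradAux.ov_eq sg_1.spin hk hH l
  have q0 : ∀ l, 0 ≤ q l := fun l => eq l ▸ div_nonneg (sum_nonneg fun i _ =>
    pp_nonneg hk hH (GradAux.ex_x sg_1.spin hk i) l) N.cast_nonneg
  have q1 : ∀ l, |q l| ≤ 1 := fun l => by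
    have := pp_prob hk hH l
    simpa using norm_integral_le_of_norm_le_const (μ := pp k (νN N) H0 l) (f := Ro) (C := 1)
      (ae_of_all _ fun p => abs_R _ _)
  set r : ℕ → ℝ := fun l => β ^ 2 * pathR k q l with hr
  have ar : AdmR r := ⟨by simp [r, pathR], fun l l' h => mul_le_mul_of_nonneg_left (by
    unfold pathR
    split_ifs
    exacts [le_rfl, q0 _, by omega, by
      rw [eq, eq]
      exact div_le_div_of_nonneg_right (sum_le_sum fun i _ => pp_mono hk hH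
        (GradAux.ex_x sg_1.spin hk i) (by omega) (by omega)) N.cast_nonneg]) hb.le⟩
  have br : ∀ l, r l ≤ β ^ 2 := fun l => mul_le_of_le_one_right hb.le (by
    unfold pathR
    split_ifs
    exacts [zero_le_one, (abs_le.1 (q1 _)).2])
  have er : ∀ l < k, 0 < l → r l = β ^ 2 * q l := fun l h1 h2 => by
    simp only [r, pathR, min_eq_left (by omega : l ≤ k - 1), if_neg h2.ne']
  refine ⟨r, ar, br, ?_⟩
  set ε := 4 * exp (8 * β ^ 2) * (θ + (L ^ 4 * (η / θ' + θ') + 2 * exp (8 * β ^ 2) / L) / θ)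
  set v : ℕ → ℝ := fun j => wS Unit k r j ()
  have v0 : ∀ j, 0 ≤ v j := fun j => GradAux.wS_nonneg ar.2 j ()
  have sv : ∀ l < k, ∑ j ∈ range l, v j = r l := fun l hl => by
    have := GradAux.tele r hl
    rwa [ar.1, sub_zero] at this
  have tv : ∑ j ∈ range k, v j = r (k - 1) := by
    have := GradAux.tele' r hk
    rwa [ar.1, sub_zero] at this
  have tr : ∀ t, 0 ≤ t → t ≤ 1 → ∑ l ∈ range k, ∫ p, |dot (tl p.1.1) (tl p.2.1) / N - q l|
      ∂pp k (νN (N + 1)) ((Sp xC).Hv k (wC N b u (t * b) fun j => (1 - t) * v j)) l ≤ k * ε :=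
    fun t t0 t1 => by
    refine (sum_le_sum fun l hl => transfer hk b0 (by positivity) hu
      (fun j => mul_nonneg (by linarith) (v0 j)) (V := β ^ 2) (by
        rw [← mul_sum, tv]; nlinarith [br (k - 1)]) (mem_range.1 hl) (q1 l) hθ hθ' hL).trans ?_
    rw [one_div, inv_mul_le_iff₀ hk'] at hη
    simp only [← mul_sum, sum_add_distrib, ← sum_div, sum_const, card_range, nsmul_eq_mul]
    rw [show k * ε = 4 * exp (8 * β ^ 2) * (k * θ + (L ^ 4 * (k * η / θ' + k * θ') +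
      2 * (k * exp (8 * β ^ 2)) / L) / θ) by simp only [ε]; ring]
    gcongr
  have e1 : ∀ σ τ : Cf (N + 1), |sg σ 0 * sg τ 0| = 1 := fun σ τ => by simp [abs_mul, sg_1.abs]
  have s1 := Yv_ge sg_C hk (w0 := wC N b u 0 v) (w1 := wC N b u b 0)
    (fun j _ => wC_nonneg b0 le_rfl (hu j) (v0 j)) (fun j _ => wC_nonneg b0 b0 (hu j) le_rfl)
    (B := β ^ 2 * (k * ε)) fun t ht => by
      rw [show (fun j i => wC N b u b 0 j i - wC N b u 0 v j i) = wC N 0 0 b (-v) from
        funext₂ fun j i => by rcases i with (i | i) | i | i <;> simp [wC, wK, wL],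
        show (fun j i => wC N b u 0 v j i + t * (wC N b u b 0 j i - wC N b u 0 v j i)) =
          wC N b u (t * b) fun j => (1 - t) * v j from funext₂ fun j i => by
          rcases i with (i | i) | i | i <;> simp [wC, wK, wL]; ring]
      refine le_trans (sum_le_sum fun l hl => (int_Kf2 hk (sg_C.lin hk _) (a := 0) (d := β ^ 2)
        (q := q l) fun σ τ => ?_).trans_eq (zero_add _)) ?_
      · rw [Kf_wC]
        simp only [Pi.neg_apply, sum_neg_distrib, sv l (mem_range.1 hl), ite_self, zero_mul,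
          Pi.zero_apply, sum_const_zero, zero_add]
        split_ifs with h
        · refine (le_abs_self _).trans_eq ?_
          rw [abs_mul, e1, mul_one, er l (mem_range.1 hl) h, ← abs_of_pos hb, ← abs_mul,
            abs_of_pos hb, hb1]
          congr 1
          ring
        · rw [show l = 0 by omega, ar.1]
          simp; positivity
      · rw [← mul_sum]
        exact mul_le_mul_of_nonneg_left (tr t ht.1.le ht.2.le) hb.le
  obtain ⟨κ, hκ, κ0, κ1⟩ := kappa hb hN'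
  rw [← hb1, ← hb2] at hκ
  have s2 := Yv_tan sg_C hk (wC N b u b 0) (wC N b' u b 0)
  rw [show (fun j i => 2 * ((√(wC N b' u b 0 j i) - √(wC N b u b 0 j i)) * √(wC N b u b 0 j i))) =
    wC N (-(2 * κ)) 0 0 0 from funext₂ fun j i => by
      rcases i with (i | i) | i | i <;> simp [wC, wK, wL]
      split_ifs <;> simp [hκ]; ring, GI_lin sg_C hk] at s2
  have s3 : ∑ l ∈ range k, ∫ p, Kf xC (wC N (-(2 * κ)) 0 0 0) l p.1.1 p.2.1
      ∂pp k (νN (N + 1)) ((Sp xC).Hv k (wC N b u b 0)) l ≤ k * (β ^ 2 / 2 - κ * (N ^ 2 - N)) -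
        (∑ l ∈ range k, r l ^ 2) / (2 * β ^ 2) + β ^ 2 * (k * ε) := by
    refine le_trans (sum_le_sum fun l hl => int_Kf2 hk (sg_C.lin hk _) (d := β ^ 2) (q := q l)
      (a := β ^ 2 / 2 - κ * (N ^ 2 - N) - r l ^ 2 / (2 * β ^ 2)) fun σ τ => ?_) ?_
    · rw [Kf_wC]
      simp only [ite_self, zero_mul, Pi.zero_apply, sum_const_zero, add_zero]
      have a1 := abs_R (tl σ) (tl τ)
      obtain ⟨R, hR⟩ : ∃ R, dot (tl σ) (tl τ) = R * N := ⟨_, (div_mul_cancel₀ _ (by positivity)).symm⟩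
      rw [hR, mul_div_cancel_right₀ _ (by positivity)] at a1 ⊢
      have a2 := mul_nonneg hb.le (abs_nonneg (R - q l))
      split_ifs with h
      · have a3 : q l ^ 2 - R ^ 2 ≤ 2 * |R - q l| := by
          rw [sq_sub_sq, abs_sub_comm]
          refine (le_abs_self _).trans ?_
          rw [abs_mul]
          exact mul_le_mul_of_nonneg_right ((abs_add_le _ _).trans (by linarith [q1 l]))
            (abs_nonneg _)
        have a4 : 0 ≤ 1 - R ^ 2 := by rw [← sq_abs]; nlinarith [abs_nonneg R]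
        rw [er l (mem_range.1 hl) h, show (β ^ 2 * q l) ^ 2 / (2 * β ^ 2) = β ^ 2 * q l ^ 2 / 2 by
          field_simp]
        nlinarith [mul_le_mul_of_nonneg_right κ1 a4, mul_le_mul_of_nonneg_left a3 hb.le]
      · obtain rfl : l = 0 := by omega
        rw [ar.1, zero_pow two_ne_zero, zero_div]
        nlinarith [mul_nonneg κ0 (zero_le_one.trans hN')]
    · have := tr 1 zero_le_one le_rfl
      simp only [one_mul, sub_self, zero_mul] at this
      rw [sum_add_distrib, sum_sub_distrib, ← sum_div, sum_const, card_range, nsmul_eq_mul,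
        ← mul_sum]
      exact add_le_add_right (mul_le_mul_of_nonneg_left this hb.le) _
  have s4 := cmpC (N := N) (b := b) hk b0' (by rw [hb1, hb2]; field_simp; ring) hN hu
  have s5 := mul_le_mul_of_nonneg_left s3 (by positivity : 0 ≤ 1 / (2 * (k : ℝ)))
  rw [show 1 / (2 * (k : ℝ)) * (k * (β ^ 2 / 2 - κ * (N ^ 2 - N)) -
      (∑ l ∈ range k, r l ^ 2) / (2 * β ^ 2) + β ^ 2 * (k * ε)) = β ^ 2 / 4 - κ * (N ^ 2 - N) / 2 -
      1 / (4 * k * β ^ 2) * ∑ l ∈ range k, r l ^ 2 + β ^ 2 * ε / 2 by field_simp; ring] at s5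
  rw [Yv_wC hk, tot_wC hk, tot_wC hk, tv, show β ^ 2 * (k * ε) / (2 * k) = β ^ 2 * ε / 2 by
    field_simp] at s1
  rw [tot_wC hk] at s2
  simp only [Pi.zero_apply, sum_const_zero] at s1 s2
  simp only [PK, XN, Fintype.card_unit, Nat.cast_one, div_one]
  linarith

end

end Vale.Agent.P146
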