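import Vale.Agent.P146.SK

/-! Synchronisation of the overlap at a contact point. -/

set_option linter.all false

namespace Vale.Agent.P146

open MeasureTheory ProbabilityTheory Real Finset Filter Topology Vale.Agent.P146M

noncomputable section

variable {k N : ℕ} {b a : ℝ}

/-- penalised free energy -/
def GK (k N : ℕ) (b a : ℝ) (y : ℕ → ℝ) : ℝ :=
  FK k N b (fun j => y j ^ 2) - 12 * N * ∑ j ∈ range k, (y j - a) ^ 2

/-- overlap -/
def Ro {I : Type} (p : St I (Cf N) × St I (Cf N)) : ℝ := dot p.1.1 p.2.1 / N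

/-- the box of the perturbation parameters -/
def Box (a : ℝ) : Set (ℕ → ℝ) := Set.pi Set.univ fun _ => Set.Icc (a / 2) (3 * a / 2)

lemma sum_upd {j : ℕ} (hj : j < k) (y : ℕ → ℝ) (v : ℝ) (f : ℕ → ℝ → ℝ) :
    ∑ i ∈ range k, f i (Function.update y j v i) = ∑ i ∈ range k, f i (y i) + (f j v - f j (y j)) := by
  rw [← add_sum_erase _ _ (mem_range.2 hj), ← add_sum_erase _ _ (mem_range.2 hj),
    Function.update_self, sum_congr rfl fun i hi => by rw [Function.update_of_ne (ne_of_mem_erase hi)]]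
  ring

lemma upd_box {y : ℕ → ℝ} (hy : y ∈ Box a) (j : ℕ) {v : ℝ} (h1 : a / 2 ≤ v) (h2 : v ≤ 3 * a / 2) :
    Function.update y j v ∈ Box a := fun i _ => by
  rcases eq_or_ne i j with rfl | h
  · simpa using ⟨h1, h2⟩
  · simpa [h] using hy i trivial

theorem contact (hk : 0 < k) (hN : 0 < N) (hb : 0 ≤ b) (ha : 0 < a) : ∃ y ∈ Box a,
    (∀ y' ∈ Box a, GK k N b a y' ≤ GK k N b a y) ∧ (1 / (k : ℝ)) * ∑ l ∈ range k,
      ∫ p, (Ro p - ∫ p, Ro p ∂pp k (νN N) ((Sp xS).Hv k (wK N b fun j => y j ^ 2)) l) ^ 2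
        ∂pp k (νN N) ((Sp xS).Hv k (wK N b fun j => y j ^ 2)) l ≤
      7 / k + 5 * k * (1 / N + 4 * √(24 * k * N) / (a * N)) := by
  have hN' : (0 : ℝ) < N := by exact_mod_cast hN
  have hY := gs_ok (I := Pr N ⊕ Fin N) (ν := νN N) hk
  have hc : Continuous (GK k N b a) := by
    refine (continuous_iff_continuousAt.2 fun y => ?_).sub (by fun_prop)
    refine Rg.Yv_cont sg_S.ok hk fun j _ i => ?_
    rcases i with i | i
    · exact tendsto_const_nhds
    · exact ((continuous_apply j).pow 2).tendsto y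
  obtain ⟨y, hy, hm⟩ := (isCompact_univ_pi fun _ => isCompact_Icc).exists_isMaxOn
    (⟨fun _ => a, fun _ _ => ⟨by linarith, by linarith⟩⟩ : (Box a).Nonempty) hc.continuousOn
  refine ⟨y, hy, hm, ?_⟩
  have hin : ∀ j < k, |y j - a| ≤ 5 * a / 12 := fun j hj => by
    have h1 : GK k N b a _ ≤ GK k N b a y := hm (upd_box hy j (v := a) (by linarith) (by linarith))
    have h2 := FK_lip (N := N) hk hb (u := fun i => Function.update y j a i ^ 2)
      (u' := fun i => y i ^ 2) (fun _ => sq_nonneg _) fun _ => sq_nonneg _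
    rw [sum_upd hj y a fun i v => |y i ^ 2 - v ^ 2|] at h2
    rw [GK, GK, sum_upd hj y a fun _ v => (v - a) ^ 2] at h1
    obtain ⟨b1, b2⟩ := hy j trivial
    simp only [sub_self, abs_zero, sum_const_zero, zero_add, sub_zero] at h2
    rw [sq_sub_sq, abs_mul, abs_of_pos (by linarith : 0 < y j + a)] at h2
    rw [← sq_abs (y j - a)] at h1
    by_contra h
    have h3 : 6 * |y j - a| ^ 2 ≤ (y j + a) * |y j - a| := by nlinarith
    nlinarith
  set H := (Sp xS).Hv k (wK N b fun j => y j ^ 2)
  have hH : (GS k _ (νN N)).Lin H := sg_S.lin hk _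
  have y0 : ∀ j, 0 ≤ y j := fun j => by linarith [(hy j trivial).1]
  have h := syncA hk hH Sum.inr (fun d s => sg s.1 d) (fun _ _ _ => 0) y (K := 1) hN' zero_le_one
    (half_pos ha) (sqrt_nonneg (24 * k * N)) (fun j _ => (hy j trivial).1)
    (fun d => (Measurable.of_discrete (f := fun σ => sg σ d)).comp measurable_fst)
    (fun _ _ => Sys.Ex.const hY 0)
    (fun j hj d => (Rg.dirD_H sg_S.ok _ hj (.inr d)).congr (fun _ => rfl) fun s => by
      simp [Sp, wK, xS, y0 j])
    (fun j _ d d' => (DirD.config fun σ => sg σ d').congr (fun _ => rfl) fun _ => mul_zero _)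
    (fun s => by simp [sg_sq]) (fun _ _ => by simp) fun j hj => by
      have hh : (GS k (Pr N ⊕ Fin N) (νN N)).Lin fun s => ∑ d, s.2 j (.inr d) * sg s.1 d := by
        have := sg_S.lin hk fun i => Sum.elim 0 (wL (Fin N) 1 j i)
        rwa [show (Sp xS).Hv k _ = fun s => ∑ d, s.2 j (.inr d) * sg s.1 d from funext fun s => by
          rw [GradAux.Hv_Sp, sum_eq_single_of_mem j (mem_range.2 hj) fun i _ h => by simp [wL, h]]
          simp [wL, xS, mul_comm]] at this
      rw [sq_sqrt (by positivity)]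
      refine (var_contact hk hH hh (α := 24 * N * (y j - a)) (Λ := 12 * N) ?_).trans_eq (by ring)
      filter_upwards [Ioo_mem_nhds (by linarith : -(a / 12) < 0) (by linarith : 0 < a / 12)]
        with t ht
      obtain ⟨c1, c2⟩ := abs_le.1 (hin j hj)
      have h1 : GK k N b a _ ≤ GK k N b a y := hm (upd_box hy j (v := y j + t)
        (by linarith [ht.1]) (by linarith [ht.2]))
      rw [GK, GK, sum_upd hj y _ fun _ v => (v - a) ^ 2, FK, FK, Rg.Yv, Rg.Yv,
        show (Sp xS).Hv k (wK N b fun i => Function.update y j (y j + t) i ^ 2) =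
          fun s => H s + t * ∑ d, s.2 j (.inr d) * sg s.1 d from funext fun s => by
          simp only [H, GradAux.Hv_Sp, Fintype.sum_sum_type, wK, Sum.elim_inl, Sum.elim_inr,
            sum_add_distrib, add_assoc, add_right_inj, xS]
          rw [sum_upd hj y _ fun i v => ∑ d, √(v ^ 2) * sg s.1 d * s.2 i (.inr d),
            sqrt_sq (y0 j), sqrt_sq (by linarith [ht.1]), mul_sum, ← sum_sub_distrib]
          exact congrArg _ (sum_congr rfl fun _ _ => by ring)] at h1
      simp only [zero_mul, add_zero, mul_zero, sub_zero, ne_eq, OfNat.ofNat_ne_zero,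
        not_false_eq_true, zero_pow]
      linarith
  refine h.trans_eq ?_
  field_simp
  ring

end

end Vale.Agent.P146
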