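import Vale.Agent.P146.One

/-! Variance versus exponential moments for log-sum-exp functionals of Gaussians. -/

set_option linter.all false

namespace Vale.Agent.P146

open MeasureTheory ProbabilityTheory Real Finset Vale.Agent.P146M Vale.Agent.P146M.Sys
open scoped ENNReal

noncomputable section

variable {S : Type} [Fintype S] [Nonempty S]

def LS (c : ℕ → S → ℝ) (m : ℝ) : Sys (S → ℝ) ℝ where
  μ := γ1
  a j s w := s + w • c j
  ζ _ := m
  ν s := ‖s‖
  n j w := ‖c j‖ * |w|

variable {c : ℕ → S → ℝ} {m : ℝ}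

lemma LS_ok (hm : 0 < m) : (LS c m).OK where
  prob := by unfold LS; infer_instance
  meas_a j := by unfold LS; fun_prop
  ζ_pos _ := hm
  meas_ν := measurable_norm
  ν_nonneg s := norm_nonneg s
  meas_n j := by unfold LS; fun_prop
  n_nonneg j w := by unfold LS; positivity
  ν_a j s w := (norm_add_le _ _).trans (by simp [LS, norm_smul, mul_comm])
  int_n j C := by simpa only [LS, mul_assoc] using int_eabs (C * ‖c j‖)

def E0 (c : ℕ → S → ℝ) (m : ℝ) (n j : ℕ) (f : (S → ℝ) → ℝ) : (S → ℝ) → ℝ :=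
  (LS c m).P n j (fun _ => 0) f

lemma T0 (hm : 0 < m) (j : ℕ) : (LS c m).T j (fun _ => 0) = fun _ => 0 :=
  X_const (LS_ok hm) 0 1 j

lemma E0_succ (hm : 0 < m) {f : (S → ℝ) → ℝ} (hf : (LS c m).Ex f) (n j : ℕ) (s : S → ℝ) :
    E0 c m (n + 1) j f s = ∫ w, E0 c m n (j + 1) f (s + w • c j) ∂γ1 := by
  have hY := LS_ok (c := c) hm
  rw [E0, P_succ hY (Lin.const hY 0) hf, X_const hY,
    integral_stepM hY (Lin.const hY 0) j s (measurable_P hY (Lin.const hY 0) hf.1 _ _), T0 hm]
  simp only [sub_self, mul_zero, exp_zero, one_mul]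
  rfl

lemma m0_eq (hm : 0 < m) (n j : ℕ) (s : S → ℝ) : (LS c m).m n j (fun _ => 0) s =
    (γ (Fin n)).map fun g => s + ∑ i : Fin n, g i • c (j + i) := by
  have hY := LS_ok (c := c) hm
  induction n generalizing j s with
  | zero => simp [Sys.m]
  | succ n ih =>
    refine Measure.ext_of_lintegral _ fun f hf => ?_
    have hm' := measurable_m hY (Lin.const hY 0) n (j + 1)
    have hm2 : Measurable fun a => ∫⁻ x, f x ∂(LS c m).m n (j + 1) (fun _ => 0) a :=
      (Measure.measurable_lintegral hf).comp hm'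
    rw [Sys.m, Measure.lintegral_bind hm'.aemeasurable hf.aemeasurable, X_const hY,
      lintegral_stepM hY (Lin.const hY 0) j s hm2, T0 hm,
      lintegral_map hf (by fun_prop),
      ← (measurePreserving_piFinSuccAbove (fun _ : Fin (n + 1) => γ1) 0).symm.lintegral_comp
        (by fun_prop), lintegral_prod _ (by fun_prop)]
    simp only [sub_self, mul_zero, exp_zero, ENNReal.ofReal_one, one_mul]
    refine lintegral_congr fun w => ?_
    rw [ih, lintegral_map hf (by fun_prop)]
    refine lintegral_congr fun g => ?_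
    congr 1
    rw [Fin.sum_univ_succ]
    simp [LS, MeasurableEquiv.piFinSuccAbove, add_assoc, add_comm 1]

lemma ex_shift (hm : 0 < m) {f : (S → ℝ) → ℝ} (hf : (LS c m).Ex f) (v : S → ℝ) :
    (LS c m).Ex fun x => f (x + v) := by
  obtain ⟨C, h0, hC⟩ := hf.bd (LS_ok hm)
  refine ⟨hf.1.comp (by fun_prop), C * exp (C * ‖v‖) + C, fun x => (hC _).trans ?_⟩
  simp only [LS]
  have h1 : exp (C * ‖x + v‖) ≤ exp (C * ‖v‖) * exp ((C * exp (C * ‖v‖) + C) * ‖x‖) := by
    rw [← exp_add]
    refine exp_le_exp.2 ?_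
    have := norm_add_le x v
    have h2 : 0 ≤ C * exp (C * ‖v‖) * ‖x‖ := by positivity
    nlinarith
  have h3 : 0 ≤ C * exp ((C * exp (C * ‖v‖) + C) * ‖x‖) := by positivity
  nlinarith [mul_le_mul_of_nonneg_left h1 h0]

lemma E0_shift (hm : 0 < m) {f : (S → ℝ) → ℝ} (hf : Measurable f) (n j : ℕ) (s v : S → ℝ) :
    E0 c m n j f (s + v) = E0 c m n j (fun x => f (x + v)) s := by
  have h2 : Measurable fun x => f (x + v) := hf.comp (measurable_add_const v)
  have h3 : ∀ s : S → ℝ, Measurable fun g : Fin n → ℝ => s + ∑ i : Fin n, g i • c (j + i) :=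
    fun s => by fun_prop
  rw [E0, E0, Sys.P, Sys.P, m0_eq hm, m0_eq hm,
    integral_map (h3 _).aemeasurable hf.aestronglyMeasurable,
    integral_map (h3 _).aemeasurable h2.aestronglyMeasurable]
  simp only [add_right_comm s v]

lemma expX (hm : 0 < m) {H : (S → ℝ) → ℝ} (hH : (LS c m).Lin H) (n j : ℕ) (s : S → ℝ) :
    exp (m * (LS c m).X n j H s) = E0 c m n j (fun x => exp (m * H x)) s := by
  have hY := LS_ok (c := c) hm
  have hE : (LS c m).Ex fun x => exp (m * H x) := (hH.const_mul m).ex_exp hY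
  induction n generalizing j s with
  | zero => rw [E0, P_zero hE.1]; rfl
  | succ n ih =>
    rw [E0_succ hm hE]
    simp only [← ih]
    exact exp_T hY (lin_X hY hH n (j + 1)) j s

lemma lin_lse (c : ℕ → S → ℝ) (m : ℝ) : (LS c m).Lin lse := by
  refine ⟨meas_lse, |lse (0 : S → ℝ)| + 1, fun s => ?_⟩
  have h := lse_lip 0 s
  rw [zero_add] at h
  have := abs_sub_abs_le_abs_sub (lse s) (lse (0 : S → ℝ))
  simp only [LS]
  nlinarith [abs_nonneg (lse (0 : S → ℝ)), norm_nonneg s,
    mul_nonneg (abs_nonneg (lse (0 : S → ℝ))) (norm_nonneg s)]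

lemma ex_gib (hm : 0 < m) (b : S → ℝ) : (LS c m).Ex (gib b) :=
  Ex.of_bdd (LS_ok hm) (meas_gib b) ‖b‖ (gib_abs_le fun σ => norm_le_pi_norm b σ)

lemma E0_bd (hm : 0 < m) {f : (S → ℝ) → ℝ} {K : ℝ} (h : ∀ x, |f x| ≤ K) (n j : ℕ) (s : S → ℝ) :
    |E0 c m n j f s| ≤ K := by
  have := m_prob (LS_ok (c := c) hm) (Lin.const (LS_ok hm) 0) n j s
  have h1 := norm_integral_le_of_norm_le_const (μ := (LS c m).m n j (fun _ => 0) s) (f := f)
    (ae_of_all _ h)
  rwa [probReal_univ, mul_one] at h1

lemma E0_int (hm : 0 < m) {f : (S → ℝ) → ℝ} (hf : (LS c m).Ex f) (n j : ℕ) (s : S → ℝ) :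
    Integrable f ((LS c m).m n j (fun _ => 0) s) :=
  hf.integrable_m (LS_ok hm) (Lin.const (LS_ok hm) 0) n j s

lemma E0_sub (hm : 0 < m) {f g : (S → ℝ) → ℝ} (hf : (LS c m).Ex f) (hg : (LS c m).Ex g) (u : ℝ)
    (n j : ℕ) (s : S → ℝ) :
    E0 c m n j f s - u * E0 c m n j g s = E0 c m n j (fun x => f x - u * g x) s := by
  rw [E0, E0, E0, Sys.P, Sys.P, Sys.P, integral_sub (E0_int hm hf n j s)
    ((E0_int hm hg n j s).const_mul u), integral_const_mul]

lemma E0_lip (hm : 0 < m) (n j : ℕ) (s v : S → ℝ) :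
    |E0 c m n j lse (s + v) - E0 c m n j lse s| ≤ ‖v‖ := by
  have hL := (lin_lse c m).ex (LS_ok hm)
  rw [E0_shift hm meas_lse, ← one_mul (E0 c m n j lse s), E0_sub hm (ex_shift hm hL v) hL]
  exact E0_bd hm (fun x => by simpa using lse_lip x v) n j s

/-- conditional variance -/
def V0 (c : ℕ → S → ℝ) (m : ℝ) (n j : ℕ) (s : S → ℝ) : ℝ :=
  E0 c m n j (fun x => lse x ^ 2) s - E0 c m n j lse s ^ 2

lemma lower_aux (hm : 0 < m) {κ : ℝ} (hc : ∀ j σ, |c j σ| ≤ κ) (n j : ℕ) (a b : S → ℝ) :
    E0 c m n j lse a + E0 c m n j (gib b) a + m / 8 * (V0 c m n j a - (4 + 2 * M4) * n * κ ^ 4) ≤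
      (LS c m).X n j lse (a + b) := by
  have hY := LS_ok (c := c) hm
  have hl := lin_lse c m
  have hL := hl.ex hY
  have h0 := Lin.const hY (0 : ℝ)
  induction n generalizing j a b with
  | zero =>
    simp only [V0, E0, P_zero hL.1, P_zero (meas_gib b), P_zero (hL.sq hY).1]
    simpa [Sys.X] using lse_add_ge a b
  | succ n ih =>
    set s := E0 c m (n + 1) j (gib (c j)) a with hs
    have hX := lin_X hY hl n (j + 1)
    obtain ⟨C, hC0, hC⟩ := hX.bd hY
    set Φ := (LS c m).X n (j + 1) lse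
    have hsh := shift (ψ := fun w => m * Φ (a + b + w • c j))
      ((hX.1.comp (by fun_prop)).const_mul m) (C := m * (C * (1 + ‖a + b‖ + ‖c j‖))) (fun w => by
        rw [abs_mul, abs_of_pos hm, mul_assoc]
        refine mul_le_mul_of_nonneg_left ((hC _).trans ?_) hm.le
        rw [mul_assoc]
        refine mul_le_mul_of_nonneg_left ?_ hC0
        have := hY.ν_a j (a + b) w
        simp only [LS] at this ⊢
        nlinarith [norm_nonneg (a + b), norm_nonneg (c j), abs_nonneg w,
          mul_nonneg (norm_nonneg (a + b)) (abs_nonneg w)]) (m * s)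
    have e1 : (LS c m).X (n + 1) j lse (a + b) =
        m⁻¹ * log (∫ w, exp (m * Φ (a + b + w • c j)) ∂γ1) := rfl
    have iP : ∀ f, (LS c m).Ex f →
        Integrable (fun w : ℝ => E0 c m n (j + 1) f (a + w • c j)) γ1 :=
      fun f hf => Ex.integrable_step hY (ex_P hY h0 (g := f) hf n (j + 1)) j a
    have iG := iP lse hL
    have iG2 := iP _ (hL.sq hY)
    have iG3 : Integrable (fun w : ℝ => E0 c m n (j + 1) lse (a + w • c j) ^ 2) γ1 :=
      Ex.integrable_step hY ((ex_P hY h0 hL n (j + 1)).sq hY) j a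
    have ib := iP _ (ex_gib hm b)
    have ic := iP _ (ex_gib hm (c j))
    have iΦ : Integrable (fun w : ℝ => Φ (a + b + (m * s) • c j + w • c j)) γ1 :=
      Ex.integrable_step hY (hX.ex hY) j (a + b + (m * s) • c j)
    have step : ∀ w : ℝ, E0 c m n (j + 1) lse (a + w • c j) + E0 c m n (j + 1) (gib b) (a + w • c j)
        + m * s * E0 c m n (j + 1) (gib (c j)) (a + w • c j) + m / 8 *
          (E0 c m n (j + 1) (fun x => lse x ^ 2) (a + w • c j) -
            E0 c m n (j + 1) lse (a + w • c j) ^ 2) - m / 8 * ((4 + 2 * M4) * n * κ ^ 4) ≤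
        Φ (a + b + (m * s) • c j + w • c j) := fun w => by
      have h1 := ih (j + 1) (a + w • c j) (b + (m * s) • c j)
      have h2 := E0_sub (c := c) hm (ex_gib hm b) (ex_gib hm (c j)) (-(m * s)) n (j + 1)
        (a + w • c j)
      simp only [neg_mul, sub_neg_eq_add, ← gib_lin] at h2
      rw [← h2, V0] at h1
      have e : a + w • c j + (b + (m * s) • c j) = a + b + (m * s) • c j + w • c j := by abel
      rw [e] at h1
      linarith
    have i1 : Integrable (fun w : ℝ => E0 c m n (j + 1) lse (a + w • c j) +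
        E0 c m n (j + 1) (gib b) (a + w • c j)) γ1 := iG.add ib
    have i2 : Integrable (fun w : ℝ => E0 c m n (j + 1) lse (a + w • c j) +
        E0 c m n (j + 1) (gib b) (a + w • c j) +
          m * s * E0 c m n (j + 1) (gib (c j)) (a + w • c j)) γ1 := i1.add (ic.const_mul _)
    have i3 : Integrable (fun w : ℝ => E0 c m n (j + 1) (fun x => lse x ^ 2) (a + w • c j) -
        E0 c m n (j + 1) lse (a + w • c j) ^ 2) γ1 := iG2.sub iG3
    have i4 : Integrable (fun w : ℝ => E0 c m n (j + 1) lse (a + w • c j) +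
        E0 c m n (j + 1) (gib b) (a + w • c j) +
          m * s * E0 c m n (j + 1) (gib (c j)) (a + w • c j) + m / 8 *
          (E0 c m n (j + 1) (fun x => lse x ^ 2) (a + w • c j) -
            E0 c m n (j + 1) lse (a + w • c j) ^ 2)) γ1 := i2.add (i3.const_mul (m / 8))
    have key := integral_mono (i4.sub (integrable_const _)) iΦ step
    simp only [Pi.add_apply, Pi.sub_apply] at key
    rw [integral_sub i4 (integrable_const _), integral_add i2 (i3.const_mul _),
      integral_add i1 (ic.const_mul _), integral_add iG ib, integral_const_mul, integral_const_mul,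
      integral_sub iG2 iG3] at key
    have hv := var_slope (G := fun w => E0 c m n (j + 1) lse (a + w • c j))
      (d := fun w => E0 c m n (j + 1) (gib (c j)) (a + w • c j))
      ((measurable_P hY h0 meas_lse _ _).comp (by fun_prop))
      ((measurable_P hY h0 (meas_gib _) _ _).comp (by fun_prop)) (sq_nonneg κ) (fun w => by
        simp only [zero_smul, add_zero]
        have h1 := E0_bd (c := c) hm (fun x => lse_slope (hc j) x w) n (j + 1) a
        have h2 := E0_sub hm (ex_shift hm hL (w • c j)) hL 1 n (j + 1) a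
        simp only [one_mul] at h2
        rw [← E0_sub hm ((ex_shift hm hL (w • c j)).sub hY hL) (ex_gib hm _), ← h2,
          ← E0_shift hm meas_lse] at h1
        have h3 := abs_sub_abs_le_abs_sub (E0 c m n (j + 1) lse (a + w • c j) -
          E0 c m n (j + 1) lse a) (w * E0 c m n (j + 1) (gib (c j)) a)
        rw [abs_mul] at h3
        linarith) (fun w => by
        simp only [zero_smul, add_zero]
        have h2 := E0_sub (c := c) hm (ex_shift hm (ex_gib hm (c j)) (w • c j)) (ex_gib hm (c j))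
          1 n (j + 1) a
        simp only [one_mul] at h2
        rw [E0_shift hm (meas_gib _), h2]
        exact E0_bd hm (fun x => gib_lip (hc j) x w) n (j + 1) a)
    have e2 : ∫ w, m * Φ (a + b + (w + m * s) • c j) ∂γ1 =
        m * ∫ w, Φ (a + b + (m * s) • c j + w • c j) ∂γ1 := by
      rw [← integral_const_mul]
      refine integral_congr_ae (ae_of_all _ fun w => ?_)
      simp only [add_smul]
      congr 2; abel
    rw [e2] at hsh
    rw [e1, le_inv_mul_iff₀ hm, V0, E0_succ hm hL, E0_succ hm (ex_gib hm b),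
      E0_succ hm (hL.sq hY)]
    rw [E0_succ hm (ex_gib hm (c j))] at hs
    simp only [integral_const, probReal_univ, one_smul] at key
    rw [← hs] at key hv
    refine le_trans ?_ hsh
    have key' := mul_le_mul_of_nonneg_left key hm.le
    have hv' := mul_le_mul_of_nonneg_left hv (by positivity : 0 ≤ m ^ 2 / 8)
    push_cast
    nlinarith

lemma upper_aux (hm : 0 < m) {κ B : ℝ} (hc : ∀ j σ, |c j σ| ≤ κ) (hB : m * κ ≤ B) (n j : ℕ)
    (a : S → ℝ) : (LS c m).X n j lse a ≤ E0 c m n j lse a + Kc B * m * n * κ ^ 2 := by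
  have hY := LS_ok (c := c) hm
  have hl := lin_lse c m
  have hL := hl.ex hY
  have h0 := Lin.const hY (0 : ℝ)
  have hκ : 0 ≤ κ := (abs_nonneg _).trans (hc 0 (Classical.arbitrary S))
  induction n generalizing j a with
  | zero => simp [E0, P_zero hL.1, Sys.X]
  | succ n ih =>
    have hX := lin_X hY hl n (j + 1)
    have e1 : (LS c m).X (n + 1) j lse a =
        m⁻¹ * log (∫ w, exp (m * (LS c m).X n (j + 1) lse (a + w • c j)) ∂γ1) := rfl
    have hG : ∀ w w' : ℝ, |m * (E0 c m n (j + 1) lse (a + w • c j) + Kc B * m * n * κ ^ 2) -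
        m * (E0 c m n (j + 1) lse (a + w' • c j) + Kc B * m * n * κ ^ 2)| ≤ m * κ * |w - w'| :=
      fun w w' => by
        have h1 := E0_lip (c := c) hm n (j + 1) (a + w' • c j) ((w - w') • c j)
        have e : a + w' • c j + (w - w') • c j = a + w • c j := by rw [sub_smul]; abel
        rw [e, norm_smul, Real.norm_eq_abs] at h1
        have h2 : ‖c j‖ ≤ κ := (pi_norm_le_iff_of_nonneg hκ).2 (hc j)
        rw [← mul_sub, add_sub_add_right_eq_sub, abs_mul, abs_of_pos hm, mul_assoc]
        refine mul_le_mul_of_nonneg_left (h1.trans ?_) hm.le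
        nlinarith [abs_nonneg (w - w')]
    have mG : Measurable fun w : ℝ =>
        m * (E0 c m n (j + 1) lse (a + w • c j) + Kc B * m * n * κ ^ 2) :=
      (((measurable_P hY h0 meas_lse _ _).comp (by fun_prop)).add_const _).const_mul m
    have hc1 := conc1 mG (by positivity) hB hG
    have iG : Integrable (fun w : ℝ => E0 c m n (j + 1) lse (a + w • c j)) γ1 :=
      Ex.integrable_step hY (ex_P hY h0 hL n (j + 1)) j a
    rw [integral_const_mul, integral_add iG (integrable_const _)] at hc1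
    have b0 : ∀ w : ℝ, |m * (E0 c m n (j + 1) lse (a + w • c j) + Kc B * m * n * κ ^ 2)| ≤
        (|m * (E0 c m n (j + 1) lse (a + (0 : ℝ) • c j) + Kc B * m * n * κ ^ 2)| + m * κ) *
          (1 + |w|) := fun w => by
      have := hG w 0
      rw [sub_zero] at this
      have h2 := abs_sub_abs_le_abs_sub
        (m * (E0 c m n (j + 1) lse (a + w • c j) + Kc B * m * n * κ ^ 2))
        (m * (E0 c m n (j + 1) lse (a + (0 : ℝ) • c j) + Kc B * m * n * κ ^ 2))
      have h3 := abs_nonneg (m * (E0 c m n (j + 1) lse (a + (0 : ℝ) • c j) + Kc B * m * n * κ ^ 2))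
      nlinarith [mul_nonneg h3 (abs_nonneg w), mul_nonneg hm.le hκ]
    have i0 : Integrable (fun w : ℝ => exp (m * (LS c m).X n (j + 1) lse (a + w • c j))) γ1 :=
      integrable_exp_step hY hX j m a
    have h2 := log_le_log (integral_exp_pos i0) (integral_mono i0 (int_exp_lin mG b0) fun w =>
      exp_le_exp.2 (mul_le_mul_of_nonneg_left (ih (j + 1) _) hm.le))
    rw [e1, inv_mul_le_iff₀ hm, E0_succ hm hL]
    refine (h2.trans hc1).trans (le_of_eq ?_)
    simp only [integral_const, probReal_univ, one_smul]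
    push_cast
    ring

/-- log-sum-exp of a Gaussian vector -/
def FG {I : Type} [Fintype I] (e : I → S → ℝ) (g : I → ℝ) : ℝ := lse (∑ i, g i • e i)

theorem conv_main {I : Type} [Fintype I] {e : I → S → ℝ} {κ B : ℝ} (hm : 0 < m)
    (he : ∀ i σ, |e i σ| ≤ κ) (hκ : 0 ≤ κ) (hB : m * κ ≤ B) :
    MemLp (FG e) 2 (γ I) ∧
    (∫ g, FG e g ∂γ I) + m / 8 * (Var[FG e; γ I] - (4 + 2 * M4) * Fintype.card I * κ ^ 4) ≤
      m⁻¹ * log (∫ g, exp (m * FG e g) ∂γ I) ∧
    m⁻¹ * log (∫ g, exp (m * FG e g) ∂γ I) ≤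
      (∫ g, FG e g ∂γ I) + Kc B * m * Fintype.card I * κ ^ 2 := by
  set d := Fintype.card I
  set φ : Fin d ≃ I := (Fintype.equivFin I).symm
  set c : ℕ → S → ℝ := fun j => if h : j < d then e (φ ⟨j, h⟩) else 0
  have hc : ∀ j σ, |c j σ| ≤ κ := fun j σ => by
    simp only [c]; split_ifs
    · exact he _ _
    · simpa
  have hY := LS_ok (c := c) hm
  have hl := lin_lse c m
  have hL := hl.ex hY
  have mS : Measurable fun g : I → ℝ => ∑ i, g i • e i := by fun_prop
  have law : (LS c m).m d 0 (fun _ => 0) 0 = (γ I).map fun g => ∑ i, g i • e i := by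
    have hφ : γ I = (γ (Fin d)).map (MeasurableEquiv.piCongrLeft (fun _ => ℝ) φ) :=
      (measurePreserving_piCongrLeft (fun _ : I => γ1) φ).map_eq.symm
    rw [m0_eq hm, hφ, Measure.map_map mS (MeasurableEquiv.measurable _)]
    congr 1
    funext g
    simp only [Function.comp_apply, zero_add]
    rw [← φ.sum_comp]
    refine sum_congr rfl fun i _ => ?_
    simp [c, MeasurableEquiv.piCongrLeft_apply_apply]
  have hE : ∀ f : (S → ℝ) → ℝ, Measurable f →
      E0 c m d 0 f 0 = ∫ g, f (∑ i, g i • e i) ∂γ I := fun f hf => by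
    rw [E0, Sys.P, law, integral_map mS.aemeasurable hf.aestronglyMeasurable]
  have mF : Measurable (FG e) := meas_lse.comp mS
  have h2 : MemLp (FG e) 2 (γ I) := by
    rw [memLp_two_iff_integrable_sq mF.aestronglyMeasurable]
    have := E0_int hm (hL.sq hY) d 0 0
    rw [law, integrable_map_measure (hL.sq hY).1.aestronglyMeasurable mS.aemeasurable] at this
    exact this
  have hX : (LS c m).X d 0 lse 0 = m⁻¹ * log (∫ g, exp (m * FG e g) ∂γ I) := by
    have := expX hm hl d 0 0
    rw [hE _ (meas_lse.const_mul m).exp] at this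
    simp only [FG]
    rw [← this, log_exp, inv_mul_cancel_left₀ hm.ne']
  refine ⟨h2, ?_, ?_⟩
  · have h := lower_aux hm hc d 0 0 0
    have h0 : E0 c m d 0 (gib 0) 0 = 0 := by simp [hE _ (meas_gib _), gib]
    rw [add_zero, hX, h0, V0, hE _ meas_lse, hE _ (meas_lse.pow_const 2)] at h
    rw [variance_eq_sub h2]
    simpa only [add_zero, FG, Pi.pow_apply] using h
  · have h := upper_aux hm hc hB d 0 0
    rwa [hX, hE _ meas_lse] at h

end

end Vale.Agent.P146
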