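import Mathlib

/-! The free energy of the Sherrington-Kirkpatrick model. -/

namespace Vale.Agent.P146

open MeasureTheory ProbabilityTheory

noncomputable section

/-- The real value of a spin: `true` is `1`, `false` is `-1`. -/
def spin (b : Bool) : ℝ := if b then 1 else -1

/-- Pairs of sites `i < j`. -/
abbrev Pair (n : ℕ) : Type := {p : Fin n × Fin n // p.1 < p.2}

/-- The law of the disorder: independent standard Gaussians. -/
def disorder (n : ℕ) : Measure (Pair n → ℝ) := Measure.pi fun _ => gaussianReal 0 1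

/-- The Hamiltonian `H_n(σ)`. -/
def ham (n : ℕ) (g : Pair n → ℝ) (σ : Fin n → Bool) : ℝ :=
  1 / √(n : ℝ) * ∑ p : Pair n, g p * spin (σ p.1.1) * spin (σ p.1.2)

/-- The free energy `F_n(β) = log Z_n(β)`. -/
def freeEn (n : ℕ) (β : ℝ) (g : Pair n → ℝ) : ℝ :=
  Real.log (∑ σ : Fin n → Bool, Real.exp (β * ham n g σ))

end

end Vale.Agent.P146
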