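import Vale.Agent.P146.Cav
import Vale.Agent.P146.Defs

/-! The lower bound with a rate and the variance bound. -/

set_option linter.all false

namespace Vale.Agent.P146

open MeasureTheory ProbabilityTheory Real Finset Filter Topology Vale.Agent.P146M

noncomputable section

variable {k n : ℕ} {β : ℝ}

theorem lowerA (hβ : 0 < β) (hk : 0 < k) {θ θ' L V : ℝ} (hθ : 0 < θ) (hθ' : 0 < θ') (hL : 1 ≤ L)
    (hV : ∀ r, AdmR r → (∀ l, r l ≤ β ^ 2) → V ≤ PK β k r) (hn : k ^ 7 ≤ n) :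
    (n - k ^ 7) * (V - (β ^ 2 + 3) / k - β ^ 2 * (4 * exp (8 * β ^ 2) *
      (θ + (L ^ 4 * (112 / k / θ' + θ') + 2 * exp (8 * β ^ 2) / L) / θ))) - 5 * n / k ≤
      YP k n (β ^ 2 / n) 0 := by
  have hk' : (1 : ℝ) ≤ k := by exact_mod_cast hk
  set W := V - (β ^ 2 + 3) / k - β ^ 2 * (4 * exp (8 * β ^ 2) *
    (θ + (L ^ 4 * (112 / k / θ' + θ') + 2 * exp (8 * β ^ 2) / L) / θ)) with hW
  have ha : (0 : ℝ) < 1 / k := by positivity
  have key : ∃ y ∈ Box (1 / k), (n - k ^ 7) * W ≤ GK k n (β ^ 2 / n) (1 / k) y := by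
    induction n, hn using Nat.le_induction with
    | base =>
      refine ⟨fun _ => 1 / k, fun _ _ => ⟨by linarith, by linarith⟩, ?_⟩
      have h0 : ∀ N : ℕ, 0 ≤ GK k N (β ^ 2 / N) (1 / k) fun _ => 1 / k := fun N => by
        simp only [GK, sub_self, zero_pow two_ne_zero, sum_const_zero, mul_zero, sub_zero]
        exact Yv_nonneg sg_S hk fun j _ => wK_nonneg (by positivity) (sq_nonneg _)
      exact le_trans (by simp) (h0 _)
    | succ N hN ih =>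
      obtain ⟨y0, hy0, h0⟩ := ih
      have N0 : 0 < N := (pow_pos hk 7).trans_le hN
      have hN' : (k : ℝ) ^ 7 ≤ N := by exact_mod_cast hN
      have N1 : (0 : ℝ) < N := by exact_mod_cast N0
      have k2 : (k : ℝ) ^ 2 ≤ N := (pow_le_pow_right₀ hk' (by norm_num)).trans hN'
      obtain ⟨y, hy, h1, h2⟩ := contact hk N0 (by positivity : 0 ≤ β ^ 2 / N) ha
      obtain ⟨r, a1, a2, h3⟩ := cavity hβ hk N0 (fun j => sq_nonneg (y j)) (η := 112 / k) hθ hθ' hL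
        (h2.trans (by
          have b1 : √(24 * k * N) ≤ 5 * N / k ^ 3 := sqrt_le_iff.2 ⟨by positivity, by
            rw [div_pow, le_div_iff₀ (by positivity)]; nlinarith⟩
          have b2 : 1 / (N : ℝ) ≤ 1 / k ^ 2 := one_div_le_one_div_of_le (by positivity) k2
          calc _ ≤ 7 / (k : ℝ) + 5 * k * (1 / k ^ 2 + 4 * (5 * N / k ^ 3) / (1 / k * N)) := by gcongr
            _ = _ := by field_simp; ring))
      refine ⟨y, hy, ?_⟩
      have b3 := sum_le_card_nsmul (range k) _ ((1 / k / 2) ^ 2 : ℝ) fun j _ =>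
        show (y j - 1 / k) ^ 2 ≤ _ from sq_le_sq' (by linarith [(hy j trivial).1])
          (by linarith [(hy j trivial).2])
      rw [card_range, nsmul_eq_mul, show (k : ℝ) * (1 / k / 2) ^ 2 = 3 / k / 12 by
        field_simp; ring] at b3
      have b4 : β ^ 2 / (N + 1) ≤ β ^ 2 / k :=
        div_le_div_of_nonneg_left (sq_nonneg _) (by positivity) (by nlinarith)
      have h4 := h0.trans (h1 y0 hy0)
      rw [add_div] at hW
      unfold GK at h4 ⊢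
      push_cast
      linarith [hV r a1 a2]
  obtain ⟨y, hy, h⟩ := key
  have h1 := FK_lip (N := n) hk (by positivity : 0 ≤ β ^ 2 / n) (u := 0) (u' := fun j => y j ^ 2)
    (fun _ => le_rfl) fun _ => sq_nonneg _
  have b3 := sum_le_card_nsmul (range k) _ ((3 * (1 / k) / 2) ^ 2 : ℝ) fun j _ =>
    show |y j ^ 2 - (0 : ℕ → ℝ) j| ≤ _ by
      rw [Pi.zero_apply, sub_zero, abs_sq]
      exact sq_le_sq' (by linarith [(hy j trivial).1]) (hy j trivial).2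
  rw [card_range, nsmul_eq_mul] at b3
  have b4 := mul_le_mul_of_nonneg_left b3 (n.cast_nonneg (α := ℝ))
  rw [show (n : ℝ) * (k * (3 * (1 / k) / 2) ^ 2) = 9 / 20 * (5 * n / k) by field_simp; ring] at b4
  have b5 : 0 ≤ 12 * (n : ℝ) * ∑ j ∈ range k, (y j - 1 / k) ^ 2 := by positivity
  have b6 : 0 ≤ 5 * (n : ℝ) / k := by positivity
  rw [FK_zero hk] at h1
  unfold GK at h
  linarith

/-- the free energy in the form used in the proof -/
abbrev FF (n : ℕ) (β : ℝ) : (Pr n → ℝ) → ℝ := FG fun p σ => √(β ^ 2 / n) * xP σ p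

lemma conv_SK (hβ : 0 < β) (hn : 0 < n) {m : ℝ} (hm : 0 < m) (hm1 : m ≤ 1) :
    MemLp (FF n β) 2 (γ (Pr n)) ∧
    (∫ g, FF n β g ∂γ (Pr n)) + m / 8 * (Var[FF n β; γ (Pr n)] - (4 + 2 * M4) * β ^ 4) ≤
      m⁻¹ * log (∫ g, exp (m * FF n β g) ∂γ (Pr n)) ∧
    m⁻¹ * log (∫ g, exp (m * FF n β g) ∂γ (Pr n)) ≤
      (∫ g, FF n β g ∂γ (Pr n)) + Kc β * β ^ 2 * n * m := by
  have hn' : (1 : ℝ) ≤ n := by exact_mod_cast hn
  obtain ⟨h1, h2, h3⟩ := conv_main (e := fun p σ => √(β ^ 2 / n) * xP (N := n) σ p)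
    (κ := √(β ^ 2 / n)) (B := β) hm (fun p σ => by
      rw [abs_mul, sg_P.abs, mul_one, abs_of_nonneg (sqrt_nonneg _)]) (sqrt_nonneg _)
    ((mul_le_of_le_one_left (sqrt_nonneg _) hm1).trans (sqrt_le_iff.2
      ⟨hβ.le, div_le_self (sq_nonneg _) hn'⟩))
  rw [card_Pr] at h2 h3
  rw [show √(β ^ 2 / n) ^ 4 = (√(β ^ 2 / n) ^ 2) ^ 2 by ring] at h2
  rw [sq_sqrt (by positivity)] at h2 h3
  have := M4_nonneg
  have := Kc_nonneg β
  refine ⟨h1, le_trans ?_ h2, h3.trans ?_⟩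
  · rw [mul_assoc _ (_ / 2), show ((n : ℝ) ^ 2 - n) / 2 * (β ^ 2 / n) ^ 2 =
      β ^ 4 * ((1 - 1 / n) / 2) by field_simp]
    gcongr
    exact mul_le_of_le_one_right (by positivity) (by linarith [one_div_pos.2 (one_pos.trans_le hn')])
  · rw [mul_assoc _ (_ / 2), show ((n : ℝ) ^ 2 - n) / 2 * (β ^ 2 / n) = β ^ 2 * ((n - 1) / 2) by
      field_simp, show Kc β * β ^ 2 * n * m = Kc β * m * (β ^ 2 * n) by ring]
    gcongr
    linarith

theorem var_le (hβ : 0 < β) : ∃ C, 0 ≤ C ∧ ∀ n t : ℕ, 0 < t → t ^ 423 ≤ n →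
    Var[FF n β; γ (Pr n)] ≤ C + C * (n / t) := by
  obtain ⟨C, hC⟩ := gapB hβ
  set E := exp (8 * β ^ 2)
  have := M4_nonneg
  have := Kc_nonneg β
  set D := |C| + (β ^ 2 + 3) + β ^ 2 * (4 * E * (114 + 2 * E)) + β ^ 2 / 4 + 5 + Kc β * β ^ 2
    with hD
  have D0 : 0 ≤ |C| + (β ^ 2 + 3) + β ^ 2 * (4 * E * (114 + 2 * E)) + β ^ 2 / 4 + 5 := by positivity
  have C0 : 0 ≤ (4 + 2 * M4) * β ^ 4 := by positivity
  have D1 : 0 ≤ D := by positivity
  refine ⟨(4 + 2 * M4) * β ^ 4 + 8 * D, by positivity, fun n t ht hn => ?_⟩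
  have n0 : 0 < n := (pow_pos ht _).trans_le hn
  have n1 : (0 : ℝ) < n := by exact_mod_cast n0
  have t1 : (1 : ℝ) ≤ t := by exact_mod_cast ht
  suffices h : Var[FF n β; γ (Pr n)] - (4 + 2 * M4) * β ^ 4 ≤ 8 * D * (n / t) by
    nlinarith [mul_nonneg C0 (by positivity : (0 : ℝ) ≤ n / t)]
  rcases (Nat.succ_le_of_lt ht).eq_or_lt with rfl | h2
  · obtain ⟨-, h1, h2⟩ := conv_SK hβ n0 one_pos le_rfl
    simp only [Nat.succ_eq_add_one, zero_add, Nat.cast_one, div_one]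
    nlinarith
  have hjk : t ^ 58 < t ^ 60 := Nat.pow_lt_pow_right h2 (by norm_num)
  have hk : 0 < t ^ 60 := pow_pos ht _
  obtain ⟨r, a1, a2, a3⟩ := hC _ _ (pow_pos ht 58) hjk
  obtain ⟨j, hj⟩ : ∃ j, t ^ 58 = j + 1 := ⟨t ^ 58 - 1, by have := pow_pos ht 58; omega⟩
  have e1 : ((j : ℝ) + 1) / (t ^ 60 : ℕ) = 1 / t ^ 2 := by
    rw [← Nat.cast_add_one, ← hj]; push_cast; field_simp
  have e2 : ((t ^ 58 : ℕ) : ℝ) / (t ^ 60 : ℕ) * √((t ^ 58 : ℕ) / (t ^ 60 : ℕ)) = 1 / t ^ 3 := by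
    rw [hj, Nat.cast_succ, e1, sqrt_div zero_le_one, sqrt_one, sqrt_sq (by positivity)]
    field_simp
  have g := guerra hβ n0 (by omega : j < t ^ 60) a1 fun l hl => a2 l (by omega)
  rw [YP_eq (by omega), e1] at g
  have l := lowerA hβ hk (θ := 1 / t ^ 3) (θ' := 1 / t ^ 30) (L := t ^ 6) (by positivity)
    (by positivity) (one_le_pow₀ t1) (V := PK β (t ^ 60) r - |C| * (1 / t ^ 3))
    (fun r' b1 b2 => by
      have := a3 r' b1 b2
      rw [e2] at this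
      linarith [mul_le_mul_of_nonneg_right (le_abs_self C) (by positivity : (0 : ℝ) ≤ 1 / t ^ 3)])
    (n := n) (le_trans (by rw [← pow_mul]; exact Nat.pow_le_pow_right ht (by norm_num)) hn)
  have p0 := a3 0 ⟨rfl, monotone_const⟩ fun _ => sq_nonneg _
  rw [e2, show PK β (t ^ 60) 0 = β ^ 2 / 4 by simp [PK, XN_zero spin_B hk]] at p0
  rw [YP_eq hk, Nat.cast_zero, zero_add] at l
  have k1 : 1 / ((t ^ 60 : ℕ) : ℝ) ≤ 1 / t ^ 3 := one_div_le_one_div_of_le (by positivity)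
    (by push_cast; exact pow_le_pow_right₀ t1 (by norm_num))
  have k3 : 1 / (t : ℝ) ^ 3 ≤ 1 := by rw [div_le_one (by positivity)]; exact one_le_pow₀ t1
  obtain ⟨-, c1, -⟩ := conv_SK hβ n0 (m := 1 / t ^ 2) (by positivity)
    (by rw [div_le_one (by positivity)]; exact one_le_pow₀ t1)
  obtain ⟨-, -, c2⟩ := conv_SK hβ n0 (m := 1 / (t ^ 60 : ℕ)) (by positivity) (k1.trans k3)
  rw [show 4 * E * (1 / (t : ℝ) ^ 3 + ((t ^ 6) ^ 4 * (112 / (t ^ 60 : ℕ) / (1 / t ^ 30) +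
    1 / t ^ 30) + 2 * E / t ^ 6) / (1 / t ^ 3)) = 4 * E * (114 + 2 * E) * (1 / t ^ 3) by
      push_cast; field_simp; ring, div_eq_mul_one_div (β ^ 2 + 3), div_eq_mul_one_div (5 * _)] at l
  have k4 : ((t ^ 60 : ℕ) : ℝ) ^ 7 ≤ n * (1 / t ^ 3) := by
    rw [mul_one_div, le_div_iff₀ (by positivity)]
    push_cast
    rw [← pow_mul, ← pow_add]
    exact_mod_cast hn
  have k5 : 0 ≤ ((t ^ 60 : ℕ) : ℝ) ^ 7 := by positivity
  rw [show (n : ℝ) / t = n * (1 / t ^ 3) / (1 / t ^ 2) by field_simp, ← mul_div_assoc,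
    le_div_iff₀ (by positivity)]
  generalize ((t ^ 60 : ℕ) : ℝ) ^ 7 = M at *
  have k0 : 0 ≤ 1 / ((t ^ 60 : ℕ) : ℝ) := by positivity
  generalize 1 / ((t ^ 60 : ℕ) : ℝ) = x at *
  have s0 : 0 ≤ 1 / (t : ℝ) ^ 3 := by positivity
  generalize 1 / (t : ℝ) ^ 3 = s at *
  have f1 : M * (PK β (t ^ 60) r - |C| * s - (β ^ 2 + 3) * x - β ^ 2 * (4 * E * (114 + 2 * E) * s))
      ≤ n * s * (β ^ 2 / 4) := by
    refine (mul_le_mul_of_nonneg_left ?_ k5).trans (mul_le_mul_of_nonneg_right k4 (by positivity))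
    have : 0 ≤ (β ^ 2 + 3) * x + β ^ 2 * (4 * E * (114 + 2 * E) * s) := by positivity
    linarith [mul_le_mul_of_nonneg_right (le_abs_self C) s0]
  have f2 := mul_le_mul_of_nonneg_left k1
    (by positivity : 0 ≤ n * (β ^ 2 + 3 + 5 + Kc β * β ^ 2))
  rw [hD]
  linarith

lemma freeEn_eq (hβ : 0 < β) (n : ℕ) : freeEn n β = FF n β := funext fun g => by
  rw [freeEn, FF, FG, lse]
  congr 2 with σ
  simp only [ham, Finset.sum_apply, Pi.smul_apply, smul_eq_mul, mul_sum, sqrt_div (sq_nonneg β),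
    sqrt_sq hβ.le, xP, sg, xB, spin]
  congr 2 with p
  ring

theorem main (hβ : 0 < β) : ∃ C : ℝ, ∀ n : ℕ, 1 ≤ n → MemLp (freeEn n β) 2 (disorder n) ∧
    Var[freeEn n β; disorder n] ≤ C * (n : ℝ) ^ (1 - 1 / 423 : ℝ) := by
  obtain ⟨C, C0, hC⟩ := var_le hβ
  refine ⟨C + C * 2, fun n hn => ?_⟩
  have n1 : (1 : ℝ) ≤ n := by exact_mod_cast hn
  rw [freeEn_eq hβ]
  refine ⟨(conv_SK hβ hn one_pos le_rfl).1, ?_⟩
  set x := (n : ℝ) ^ (1 / 423 : ℝ) with hx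
  have x1 : 1 ≤ x := one_le_rpow n1 (by norm_num)
  have t1 : 1 ≤ ⌊x⌋₊ := Nat.le_floor (by simpa using x1)
  have t2 : (1 : ℝ) ≤ ⌊x⌋₊ := by exact_mod_cast t1
  have h := hC n ⌊x⌋₊ t1 (by
    have h1 := pow_le_pow_left₀ (Nat.cast_nonneg _) (Nat.floor_le (zero_le_one.trans x1)) 423
    rw [show x ^ 423 = n by
      rw [hx, one_div]; exact_mod_cast rpow_inv_natCast_pow (zero_le_one.trans n1) (by norm_num)] at h1
    exact_mod_cast h1)
  have h2 : (n : ℝ) / ⌊x⌋₊ ≤ 2 * (n : ℝ) ^ (1 - 1 / 423 : ℝ) := by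
    rw [rpow_sub (by linarith), rpow_one, ← hx, ← mul_div_assoc, div_le_div_iff₀ (by linarith)
      (by linarith)]
    nlinarith [Nat.lt_floor_add_one x]
  have h3 : 1 ≤ (n : ℝ) ^ (1 - 1 / 423 : ℝ) := one_le_rpow n1 (by norm_num)
  refine h.trans ?_
  nlinarith [mul_le_mul_of_nonneg_left h2 C0, mul_le_mul_of_nonneg_left h3 C0]

end

end Vale.Agent.P146
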