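import Vale.Agent.P146.One

/-! Gebelein type inequality for the heat semigroup. -/

set_option linter.all false

namespace Vale.Agent.P146

open MeasureTheory ProbabilityTheory Real Finset Vale.Agent.P146M

noncomputable section

/-- heat semigroup -/
def Kh (t : ℝ) (f : ℝ → ℝ) (x : ℝ) : ℝ := ∫ z, f (x + √t * z) ∂γ1

/-- bounded by one and measurable -/
def Bd (f : ℝ → ℝ) : Prop := Measurable f ∧ ∀ x, |f x| ≤ 1

lemma int_bd {α : Type*} [MeasurableSpace α] {μ : Measure α} [IsFiniteMeasure μ] {f : α → ℝ}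
    (hf : Measurable f) {C : ℝ} (h : ∀ x, |f x| ≤ C) : Integrable f μ :=
  Integrable.of_bound hf.aestronglyMeasurable C (ae_of_all _ h)

lemma abs_int_le {α : Type*} [MeasurableSpace α] {μ : Measure α} [IsProbabilityMeasure μ]
    {f : α → ℝ} {C : ℝ} (h : ∀ x, |f x| ≤ C) : |∫ x, f x ∂μ| ≤ C := by
  have h1 := norm_integral_le_of_norm_le_const (μ := μ) (f := f) (ae_of_all _ h)
  rwa [probReal_univ, mul_one] at h1

variable {f g : ℝ → ℝ}

lemma Bd.sq (hf : Bd f) : Bd fun x => f x ^ 2 :=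
  ⟨hf.1.pow_const 2, fun x => by rw [abs_pow]; exact pow_le_one₀ (abs_nonneg _) (hf.2 x)⟩

lemma meas_Kh (hf : Measurable f) (t : ℝ) : Measurable (Kh t f) :=
  (StronglyMeasurable.integral_prod_right' (f := fun p : ℝ × ℝ => f (p.1 + √t * p.2))
    (hf.comp (by fun_prop)).stronglyMeasurable).measurable

lemma Bd.Kh (hf : Bd f) (t : ℝ) : Bd (Kh t f) := ⟨meas_Kh hf.1 t, fun _ => abs_int_le fun _ => hf.2 _⟩

lemma Bd.int (hf : Bd f) (t x : ℝ) : Integrable (fun z => f (x + √t * z)) γ1 :=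
  int_bd (hf.1.comp (by fun_prop)) fun _ => hf.2 _

lemma Kh_eq (hf : Measurable f) (t x : ℝ) :
    Kh t f x = ∫ y, f (x + y) ∂gaussianReal 0 t.toNNReal := by
  have h : gaussianReal 0 t.toNNReal = γ1.map (√t * ·) := by
    rw [gaussianReal_map_const_mul]
    congr 1
    · simp
    · ext; simp [sq_sqrt', max_comm]
  have hm : Measurable fun y => f (x + y) := hf.comp (measurable_const_add x)
  rw [h, integral_map (by fun_prop) hm.aestronglyMeasurable, Kh]

lemma Kh_add (hf : Bd f) {s t : ℝ} (hs : 0 ≤ s) (ht : 0 ≤ t) : Kh s (Kh t f) = Kh (s + t) f := by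
  funext x
  have hm : Measurable fun y => f (x + y) := hf.1.comp (measurable_const_add x)
  have h := gaussianReal_conv_gaussianReal (m₁ := 0) (m₂ := 0) (v₁ := s.toNNReal) (v₂ := t.toNNReal)
  rw [add_zero, ← Real.toNNReal_add hs ht] at h
  rw [Kh_eq (meas_Kh hf.1 t), Kh_eq hf.1, ← h, Measure.conv,
    integral_map (by fun_prop) hm.aestronglyMeasurable,
    integral_prod (fun p : ℝ × ℝ => f (x + (p.1 + p.2)))
      (int_bd (hf.1.comp (by fun_prop)) fun _ => hf.2 _)]
  simp only [Kh_eq hf.1, add_assoc]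

lemma Kh_zero (f : ℝ → ℝ) : Kh 0 f = f := by funext x; simp [Kh]

lemma Kh_mono (hf : Bd f) (hg : Bd g) (h : ∀ x, f x ≤ g x) (t x : ℝ) : Kh t f x ≤ Kh t g x :=
  integral_mono (hf.int t x) (hg.int t x) fun _ => h _

lemma Kh_sq (hf : Bd f) (t x : ℝ) : Kh t f x ^ 2 ≤ Kh t (fun y => f y ^ 2) x :=
  c2_sq_le (hf.int t x) (hf.sq.int t x)

lemma anova {h : ℝ → ℝ → ℝ} (hm : Measurable fun p : ℝ × ℝ => h p.1 p.2) (hb : ∀ x y, |h x y| ≤ 1)
    (hs : ∀ x y, h x y = h y x) : 2 * ∫ x, (∫ y, h x y ∂γ1) ^ 2 ∂γ1 ≤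
      (∫ x, ∫ y, h x y ^ 2 ∂γ1 ∂γ1) + (∫ x, ∫ y, h x y ∂γ1 ∂γ1) ^ 2 := by
  set u : ℝ → ℝ := fun x => ∫ y, h x y ∂γ1 with hu
  have bu : Bd u := ⟨(StronglyMeasurable.integral_prod_right' hm.stronglyMeasurable).measurable,
    fun x => abs_int_le (hb x)⟩
  have iu : Integrable u γ1 := int_bd bu.1 bu.2
  have iu2 : Integrable (fun x => u x ^ 2) γ1 := int_bd bu.sq.1 bu.sq.2
  have bx : ∀ x, Bd (h x) := fun x => ⟨hm.comp measurable_prodMk_left, hb x⟩
  have bm : ∀ x y, |h x y * u y| ≤ 1 := fun x y => by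
    rw [abs_mul]; exact mul_le_one₀ (hb x y) (abs_nonneg _) (bu.2 y)
  set M := ∫ x, u x ∂γ1
  have h1 : ∀ x, u x ^ 2 - 2 * M * u x + M ^ 2 ≤
      (∫ y, h x y ^ 2 ∂γ1) - 2 * (∫ y, h x y * u y ∂γ1) + ∫ y, u y ^ 2 ∂γ1 := fun x => by
    have i1 : Integrable (h x) γ1 := int_bd (bx x).1 (bx x).2
    have i2 : Integrable (fun y => h x y ^ 2) γ1 := int_bd (bx x).sq.1 (bx x).sq.2
    have i3 : Integrable (fun y => 2 * (h x y * u y)) γ1 :=
      (int_bd ((bx x).1.mul bu.1) (bm x)).const_mul 2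
    have i4 : Integrable (fun y => h x y ^ 2 - 2 * (h x y * u y)) γ1 := i2.sub i3
    have e : ∀ y, (h x y - u y) ^ 2 = h x y ^ 2 - 2 * (h x y * u y) + u y ^ 2 := fun y => by ring
    have h2 := c2_sq_le (f := fun y => h x y - u y) (i1.sub iu) (by simp only [e]; exact i4.add iu2)
    simp only [e] at h2
    rw [integral_sub i1 iu, integral_add i4 iu2, integral_sub i2 i3, integral_const_mul] at h2
    simp only [M] at *
    nlinarith
  have m2 : Measurable fun p : ℝ × ℝ => h p.1 p.2 * u p.2 := hm.mul (bu.1.comp measurable_snd)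
  have j1 : Integrable (fun x => ∫ y, h x y ^ 2 ∂γ1) γ1 :=
    int_bd (StronglyMeasurable.integral_prod_right' (hm.pow_const 2).stronglyMeasurable).measurable
      fun x => abs_int_le (bx x).sq.2
  have j2 : Integrable (fun x => 2 * ∫ y, h x y * u y ∂γ1) γ1 :=
    (int_bd (StronglyMeasurable.integral_prod_right' m2.stronglyMeasurable).measurable
      fun x => abs_int_le (bm x)).const_mul 2
  have j3 : Integrable (fun x => u x ^ 2 - 2 * M * u x) γ1 := iu2.sub (iu.const_mul _)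
  have j4 : Integrable (fun x => (∫ y, h x y ^ 2 ∂γ1) - 2 * ∫ y, h x y * u y ∂γ1) γ1 := j1.sub j2
  have h3 := integral_mono (j3.add (integrable_const _)) (j4.add (integrable_const _)) h1
  simp only [Pi.add_apply] at h3
  rw [integral_add j3 (integrable_const _), integral_add j4 (integrable_const _),
    integral_sub iu2 (iu.const_mul _), integral_sub j1 j2, integral_const_mul,
    integral_const_mul, integral_integral_swap (f := fun x y => h x y * u y)
      (int_bd m2 fun p => bm _ _)] at h3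
  have e2 : ∀ y, ∫ x, h x y * u y ∂γ1 = u y ^ 2 := fun y => by
    rw [integral_mul_const, sq]
    simp only [hs _ y, u]
  simp only [e2, integral_const, probReal_univ, one_smul] at h3
  simp only [M] at *
  nlinarith

lemma three (hg : Bd g) (d x : ℝ) : 2 * Kh d (fun y => Kh d g y ^ 2) x ≤
    Kh d (Kh d fun y => g y ^ 2) x + Kh d (Kh d g) x ^ 2 :=
  anova (h := fun b c => g (x + √d * b + √d * c)) (hg.1.comp (by fun_prop)) (fun _ _ => hg.2 _)
    fun b c => by rw [add_right_comm]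

/-- correlation at shared variance `a` -/
def Qh (f : ℝ → ℝ) (v a : ℝ) : ℝ := Kh a (fun x => Kh (v - a) f x ^ 2) 0

lemma Qh_mono (hf : Bd f) {v a a' : ℝ} (h0 : 0 ≤ a) (h1 : a ≤ a') (h2 : a' ≤ v) :
    Qh f v a ≤ Qh f v a' := by
  have hg := hf.Kh (v - a')
  have e1 : v - a = (a' - a) + (v - a') := by ring
  have e2 : a' = a + (a' - a) := by ring
  rw [Qh, Qh, e1, ← Kh_add hf (by linarith) (by linarith)]
  conv_rhs => rw [e2, ← Kh_add (by rw [← e2]; exact hg.sq) h0 (by linarith), ← e2]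
  exact Kh_mono (hg.Kh _).sq (hg.sq.Kh _) (fun x => Kh_sq hg _ x) _ _

lemma Qh_three (hf : Bd f) {v a d : ℝ} (h0 : 0 ≤ a) (hd : 0 ≤ d) (h2 : a + d + d ≤ v) :
    2 * Qh f v (a + d) ≤ Qh f v (a + d + d) + Qh f v a := by
  have hg := hf.Kh (v - (a + d + d))
  have e1 : v - a = d + (d + (v - (a + d + d))) := by ring
  have e2 : v - (a + d) = d + (v - (a + d + d)) := by ring
  rw [Qh, Qh, Qh, e1, e2, ← Kh_add hf hd (t := d + (v - (a + d + d))) (by linarith),
    ← Kh_add hf hd (t := v - (a + d + d)) (by linarith),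
    ← Kh_add hg.sq (by linarith) hd, ← Kh_add (hg.sq.Kh _) h0 hd, ← Kh_add (hg.Kh _).sq h0 hd]
  simp only [Kh.eq_1 a]
  rw [← integral_const_mul, ← integral_add (((hg.sq.Kh _).Kh _).int _ _)
    (((hg.Kh _).Kh _).sq.int _ _)]
  exact integral_mono ((((hg.Kh _).sq.Kh _).int _ _).const_mul 2)
    ((((hg.sq.Kh _).Kh _).int _ _).add (((hg.Kh _).Kh _).sq.int _ _)) fun _ => three hg _ _

lemma seq_conv {q : ℕ → ℝ} {n : ℕ} (h0 : q 0 = 0)
    (h : ∀ i, i + 2 ≤ n → 2 * q (i + 1) ≤ q (i + 2) + q i) (i : ℕ) (hi : i ≤ n) :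
    n * q i ≤ i * q n := by
  have h1 : ∀ i, i + 1 ≤ n → q (i + 1) ≤ (i + 1) * (q (i + 1) - q i) := fun i => by
    induction i with
    | zero => simp [h0]
    | succ i ih =>
      intro hi
      have a1 := ih (by omega)
      have a2 := h i hi
      have a3 : (0 : ℝ) ≤ i := Nat.cast_nonneg i
      push_cast
      nlinarith
  rcases Nat.eq_zero_or_pos i with rfl | hp
  · simp [h0]
  induction n, hi using Nat.le_induction with
  | base => exact le_rfl
  | succ j hj ih =>
    have a1 := ih (fun i hi => h i (by omega)) fun i hi => h1 i (by omega)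
    have a2 := h1 j le_rfl
    have a3 : (1 : ℝ) ≤ i := by exact_mod_cast hp
    have a4 : (i : ℝ) ≤ j := by exact_mod_cast hj
    refine le_of_mul_le_mul_left ?_ (by linarith : (0 : ℝ) < j)
    push_cast
    nlinarith [mul_le_mul_of_nonneg_left a1 (by linarith : (0 : ℝ) ≤ j + 1),
      mul_le_mul_of_nonneg_left a2 (by linarith : (0 : ℝ) ≤ i)]

theorem gebelein (hf : Bd f) (hodd : ∀ x, f (-x) = -f x) {v a : ℝ} (h0 : 0 ≤ a) (h1 : a ≤ v) :
    v * Qh f v a ≤ a * Qh f v v := by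
  rcases (h0.trans h1).eq_or_lt with rfl | hv
  · simp [le_antisymm h1 h0]
  have hz : Qh f v 0 = 0 := by
    have : Kh v f 0 = -Kh v f 0 := by
      have hm : Measurable fun z => f (0 + √v * z) := hf.1.comp (by fun_prop)
      have hn : γ1.map (fun x => -x) = γ1 := by simpa using gaussianReal_map_neg (μ := 0) (v := 1)
      conv_lhs => rw [Kh, ← hn, integral_map (by fun_prop) hm.aestronglyMeasurable]
      simp only [zero_add, mul_neg, hodd, integral_neg, Kh]
    rw [Qh, Kh_zero, sub_zero, show Kh v f 0 = 0 by linarith]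
    simp
  have hb : |Qh f v v| ≤ 1 := ((hf.Kh _).sq.Kh _).2 _
  have hp : 0 ≤ Qh f v v := hz ▸ Qh_mono hf le_rfl hv.le le_rfl
  refine le_of_forall_pos_le_add fun ε hε => ?_
  obtain ⟨n, hn⟩ := exists_nat_gt (v / ε)
  have hn0 : (0 : ℝ) < n := lt_trans (by positivity) hn
  have hd : 0 < v / n := by positivity
  set i := ⌈a / (v / n)⌉₊
  have hi : i ≤ n := Nat.ceil_le.2 (by rw [div_le_iff₀ hd]; field_simp; nlinarith)
  have hi1 : a ≤ i * (v / n) := by rw [← div_le_iff₀ hd]; exact Nat.le_ceil _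
  have hi2 : i * (v / n) ≤ a + v / n := by
    have := (Nat.ceil_lt_add_one (div_nonneg h0 hd.le)).le
    rw [div_add_one hd.ne', le_div_iff₀ hd] at this
    exact this
  have hle : ∀ j : ℕ, j ≤ n → j * (v / n) ≤ v := fun j hj => by
    rw [← mul_div_assoc, div_le_iff₀ hn0]
    have : (j : ℝ) ≤ n := by exact_mod_cast hj
    nlinarith
  have hs := seq_conv (q := fun j => Qh f v (j * (v / n))) (n := n) (by simpa using hz)
    (fun j hj => by
      have := Qh_three hf (v := v) (a := j * (v / n)) (by positivity) hd.le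
        (by have := hle _ hj; push_cast at this; linarith)
      push_cast
      rw [add_mul, add_mul, one_mul, two_mul (v / n), ← add_assoc]
      exact this) i hi
  simp only [mul_div_cancel₀ v hn0.ne'] at hs
  have h3 := Qh_mono hf h0 hi1 (hle i hi)
  have h4 : v / n ≤ ε := by rw [div_le_iff₀ hn0]; rw [div_lt_iff₀ hε] at hn; linarith
  have h5 : v * Qh f v a ≤ i * (v / n) * Qh f v v := by
    have := mul_le_mul_of_nonneg_left hs hd.le
    rw [← mul_assoc, div_mul_cancel₀ v hn0.ne'] at this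
    nlinarith [mul_le_mul_of_nonneg_left h3 hv.le]
  nlinarith [mul_le_mul_of_nonneg_right hi2 hp, abs_le.1 hb]

end

end Vale.Agent.P146
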