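import Vale.Agent.P146M.Grad

/-! Linear Gaussian systems with sign features. -/

set_option linter.all false

namespace Vale.Agent.P146

open MeasureTheory ProbabilityTheory Real Finset Filter Topology Vale.Agent.P146M
open scoped ENNReal

noncomputable section

/-- features with values `±1` -/
structure Sg {I Cf : Type} [MeasurableSpace Cf] (ν : Measure Cf) (x : Cf → I → ℝ) : Prop where
  prob : IsProbabilityMeasure ν
  meas : Measurable x
  sq : ∀ σ i, x σ i ^ 2 = 1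

/-- covariance kernel of the levels below `l` -/
def Kf {I Cf : Type} [Fintype I] (x : Cf → I → ℝ) (w : ℕ → I → ℝ) (l : ℕ) (σ τ : Cf) : ℝ :=
  ∑ i, (∑ j ∈ range l, w j i) * (x σ i * x τ i)

/-- total variance -/
def tot {I : Type} [Fintype I] (w : ℕ → I → ℝ) (k : ℕ) : ℝ := ∑ i, ∑ j ∈ range k, w j i

variable {I Cf : Type} [Fintype I] [MeasurableSpace Cf] {ν : Measure Cf} {x : Cf → I → ℝ} {k : ℕ}

lemma Sg.spin (hx : Sg ν x) : Spin ν x := ⟨hx.prob, hx.meas, fun σ => by simp [hx.sq]⟩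

lemma Sg.ok (hx : Sg ν x) : (Sp x).OK 1 := sp_ok hx.spin le_rfl

lemma Sg.abs (hx : Sg ν x) (σ : Cf) (i : I) : |x σ i| = 1 := by
  have := hx.sq σ i
  rw [← sq_abs] at this
  nlinarith [abs_nonneg (x σ i)]

lemma Sg.lin (hx : Sg ν x) (hk : 0 < k) (w : ℕ → I → ℝ) : (GS k I ν).Lin ((Sp x).Hv k w) :=
  haveI := hx.prob
  Rg.lin_Hv hx.ok hk w

lemma Sg.meas_Kf (hx : Sg ν x) (w : ℕ → I → ℝ) (l : ℕ) {I' : Type} :
    Measurable fun p : St I' Cf × St I' Cf => Kf x w l p.1.1 p.2.1 := by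
  have := hx.meas
  unfold Kf
  fun_prop

lemma Sg.Kf_le (hx : Sg ν x) (w : ℕ → I → ℝ) (l : ℕ) (σ τ : Cf) :
    |Kf x w l σ τ| ≤ ∑ i, |∑ j ∈ range l, w j i| := by
  refine (abs_sum_le_sum_abs _ _).trans (le_of_eq (sum_congr rfl fun i _ => ?_))
  rw [abs_mul, abs_mul, hx.abs, hx.abs, mul_one, mul_one]

lemma Hv_pull {I' Cf' : Type} [Fintype I'] {x' : Cf' → I' → ℝ} {φ : Cf' → Cf} {c : I → I'}
    (hc : Function.Injective c) (he : ∀ i σ, x' σ (c i) = x (φ σ) i) {w : ℕ → I → ℝ}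
    {w' : ℕ → I' → ℝ} (hw : ∀ j < k, ∀ i, w' j (c i) = w j i)
    (h0 : ∀ j < k, ∀ i', i' ∉ Set.range c → w' j i' = 0) :
    (Sp x').Hv k w' = fun s => (Sp x).Hv k w (pull φ c s) := by
  funext s
  have := Rg.U_pull' (R := Sp x) (R' := Sp x') (φ := φ) (o := id) hc Function.injective_id
    (fun _ => rfl) he hw () (fun j hj i' _ h => h0 j hj i' h) s
  simpa [Rg.Hv, Rg.H, Sp] using this

variable [Nonempty Cf]

lemma GI_lin (hx : Sg ν x) (hk : 0 < k) (w w' : ℕ → I → ℝ) : (Sp x).GI k ν w w' =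
    tot w' k / 2 - (1 / (2 * (k : ℝ))) * ∑ l ∈ range k,
      ∫ p, Kf x w' l p.1.1 p.2.1 ∂pp k ν ((Sp x).Hv k w) l := by
  have := hx.prob
  have := mm_prob hk (hx.lin hk w)
  unfold Rg.GI
  generalize mm k ν ((Sp x).Hv k w) = μ at *
  generalize pp k ν ((Sp x).Hv k w) = μ'
  simp [Rg.dg, Rg.ψ, Sp, hx.sq, Kf, tot, div_eq_inv_mul]

/-- lower bound along the interpolation -/
lemma Yv_ge (hx : Sg ν x) (hk : 0 < k) {w0 w1 : ℕ → I → ℝ} (h0 : ∀ j < k, ∀ i, 0 ≤ w0 j i)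
    (h1 : ∀ j < k, ∀ i, 0 ≤ w1 j i) {B : ℝ} (hB : ∀ t ∈ Set.Ioo (0 : ℝ) 1, ∑ l ∈ range k,
      ∫ p, Kf x (fun j i => w1 j i - w0 j i) l p.1.1 p.2.1
        ∂pp k ν ((Sp x).Hv k fun j i => w0 j i + t * (w1 j i - w0 j i)) l ≤ B) :
    (Sp x).Yv k ν w0 + (tot w1 k - tot w0 k) / 2 - B / (2 * k) ≤ (Sp x).Yv k ν w1 := by
  have := hx.prob
  obtain ⟨t, ht, e⟩ := Rg.GI_mvt (ν := ν) hx.ok hk h0 h1
  rw [GI_lin hx hk] at e
  have e2 : tot (fun j i => w1 j i - w0 j i) k = tot w1 k - tot w0 k := by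
    simp [tot, sum_sub_distrib]
  have h2 := mul_le_mul_of_nonneg_left (hB t ht) (by positivity : 0 ≤ 1 / (2 * (k : ℝ)))
  rw [e2] at e
  rw [one_div_mul_eq_div _ B] at h2
  linarith

lemma int_Kf_le (hx : Sg ν x) (hk : 0 < k) {I' : Type} [Fintype I'] {H : St I' Cf → ℝ}
    (hH : (GS k I' ν).Lin H) (w : ℕ → I → ℝ) (l : ℕ) {b : ℝ} (hb : ∀ σ τ, Kf x w l σ τ ≤ b) :
    ∫ p, Kf x w l p.1.1 p.2.1 ∂pp k ν H l ≤ b := by
  have := hx.prob
  have := pp_prob hk hH l
  simpa using integral_mono (μ := pp k ν H l) (Integrable.of_bound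
    (hx.meas_Kf w l).aestronglyMeasurable _ (ae_of_all _ fun p => hx.Kf_le _ l _ _))
    (integrable_const b) fun p => hb _ _

/-- comparison of two systems on the same configurations -/
lemma cmp2 {I' : Type} [Fintype I'] {x' : Cf → I' → ℝ} (hx : Sg ν x) (hx' : Sg ν x') (hk : 0 < k)
    {w : ℕ → I → ℝ} {w' : ℕ → I' → ℝ} (h0 : ∀ j < k, ∀ i, 0 ≤ w j i)
    (h1 : ∀ j < k, ∀ i, 0 ≤ w' j i) (b : ℕ → ℝ)
    (hb : ∀ l < k, ∀ σ τ, Kf x' w' l σ τ - Kf x w l σ τ ≤ b l) :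
    (Sp x).Yv k ν w + (tot w' k - tot w k) / 2 - (∑ l ∈ range k, b l) / (2 * k) ≤
      (Sp x').Yv k ν w' := by
  have := hx.prob
  have hz : Sg ν fun σ => Sum.elim (x σ) (x' σ) :=
    ⟨hx.prob, measurable_pi_lambda _ fun i => by
      rcases i with i | i
      · exact (measurable_pi_apply i).comp hx.meas
      · exact (measurable_pi_apply i).comp hx'.meas, fun σ i => by
      rcases i with i | i
      · exact hx.sq σ i
      · exact hx'.sq σ i⟩
  have h := Yv_ge hz hk (w0 := fun j => Sum.elim (w j) 0) (w1 := fun j => Sum.elim 0 (w' j))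
    (fun j hj i => by rcases i with i | i <;> simp [h0 j hj])
    (fun j hj i => by rcases i with i | i <;> simp [h1 j hj]) (B := ∑ l ∈ range k, b l)
    (fun t _ => sum_le_sum fun l hl => int_Kf_le hz hk (hz.lin hk _) _ l fun σ τ => by
      refine le_trans (le_of_eq ?_) (hb l (mem_range.1 hl) σ τ)
      simp [Kf, Fintype.sum_sum_type, sub_eq_neg_add])
  have e0 : (Sp fun σ => Sum.elim (x σ) (x' σ)).Yv k ν (fun j => Sum.elim (w j) 0) =
      (Sp x).Yv k ν w := Rg.Yv_ext_eq hx.ok hk Sum.inl_injective rfl (fun _ => rfl)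
    (fun _ _ => rfl) (fun _ _ _ => rfl) fun j _ i hi => by rcases i with i | i <;> simp at hi ⊢
  have e1 : (Sp fun σ => Sum.elim (x σ) (x' σ)).Yv k ν (fun j => Sum.elim 0 (w' j)) =
      (Sp x').Yv k ν w' := Rg.Yv_ext_eq hx'.ok hk Sum.inr_injective rfl (fun _ => rfl)
    (fun _ _ => rfl) (fun _ _ _ => rfl) fun j _ i hi => by rcases i with i | i <;> simp at hi ⊢
  rw [e0, e1] at h
  simpa [tot, Fintype.sum_sum_type] using h

/-- exponential moment of the part carried by fresh coordinates -/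
lemma moment (hx : Sg ν x) (hk : 0 < k) (p : I → Prop) [DecidablePred p] {w w0 : ℕ → I → ℝ}
    (hw : ∀ j < k, ∀ i, 0 ≤ w j i) (h0 : ∀ j i, w0 j i = if p i then 0 else w j i) {V : ℝ}
    (hV : ∑ j ∈ range k, ∑ i, (if p i then w j i else 0) ≤ V) :
    ∫ s, exp (4 * |(Sp x).Hv k w s - (Sp x).Hv k w0 s|) ∂mm k ν ((Sp x).Hv k w0) ≤
      2 * exp (8 * V) := by
  have := hx.prob
  have hY := gs_ok (I := I) (ν := ν) hk
  refine integral_rest_le hk p (hx.lin hk w0) (fun s u => ?_)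
    (Sys.dl_e_ex hY (hx.lin hk w0) (hx.lin hk w)) fun s => ?_
  · simp only [GradAux.Hv_Sp, h0, mrg]
    refine sum_congr rfl fun j _ => sum_congr rfl fun i _ => ?_
    by_cases h : p i <;> simp [h]
  · set c : Fin k × I → ℝ := fun q => if p q.2 then √(w q.1 q.2) * x s.1 q.2 else 0
    have e : ∀ u, (Sp x).Hv k w (mrg k p s u) - (Sp x).Hv k w0 (mrg k p s u) =
        ∑ q, c q * u q := fun u => by
      simp only [GradAux.Hv_Sp, h0, mrg, ← sum_sub_distrib]
      rw [Fintype.sum_prod_type, sum_range]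
      refine sum_congr rfl fun j _ => sum_congr rfl fun i _ => ?_
      by_cases h : p i <;> simp [h, c]
    have e2 : ∑ q, c q ^ 2 ≤ V := by
      refine le_trans (le_of_eq ?_) hV
      rw [Fintype.sum_prod_type, sum_range]
      refine sum_congr rfl fun j _ => sum_congr rfl fun i _ => ?_
      by_cases h : p i <;> simp [h, c, mul_pow, hx.sq, sq_sqrt (hw j j.2 i)]
    simp only [e]
    have h1 := integral_exp_abs_gauss (∑ q, c q ^ 2).toNNReal 4
    rw [← glin c, integral_map (Measurable.aemeasurable (by fun_prop)) (by fun_prop),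
      Real.coe_toNNReal _ (sum_nonneg fun _ _ => sq_nonneg _)] at h1
    exact h1.trans (mul_le_mul_of_nonneg_left (exp_le_exp.2 (by linarith)) zero_le_two)

/-- variance bound at a contact point -/
lemma var_contact [IsProbabilityMeasure ν] (hk : 0 < k) {H h : St I Cf → ℝ}
    (hH : (GS k I ν).Lin H) (hh : (GS k I ν).Lin h) {α Λ : ℝ}
    (hm : IsLocalMax (fun t : ℝ => YY k ν (fun s => H s + t * h s) - α * t - Λ * t ^ 2) 0) :
    (∫ s, h s ^ 2 ∂mm k ν H) - (∫ s, h s ∂mm k ν H) ^ 2 ≤ 2 * k * Λ := by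
  have hY := gs_ok (I := I) (ν := ν) hk
  have hk' : (0 : ℝ) < k := by exact_mod_cast hk
  obtain ⟨C1, h1, hC1⟩ := hH.bd hY
  obtain ⟨C2, h2, hC2⟩ := hh.bd hY
  have f0 : (GS k I ν).Fam (Set.Ioo (-1) 1) (fun t _ => t) fun _ _ => 1 :=
    ⟨fun _ _ => measurable_const, fun _ _ => measurable_const, fun t _ _ => hasDerivAt_id' t,
      1, fun t ht s => by
        have := one_le_exp (hY.ν_nonneg s)
        simp only [one_mul, abs_one]
        exact ⟨(abs_le.2 ⟨ht.1.le, ht.2.le⟩).trans this, this⟩⟩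
  have f1 : (GS k I ν).LFam (Set.Ioo (-1) 1) (fun t s => H s + t * h s) fun _ => h :=
    ⟨((Sys.Fam.const hY (hH.ex hY)).add hY (f0.mul hY (Sys.Fam.const hY (hh.ex hY)))).congr
      (fun _ _ => rfl) fun _ _ _ => by simp, C1 + C2, fun t ht s => by
        have a1 : |t| ≤ 1 := abs_le.2 ⟨ht.1.le, ht.2.le⟩
        refine (abs_add_le _ _).trans ?_
        rw [abs_mul]
        nlinarith [hC1 s, hC2 s, abs_nonneg (h s), abs_nonneg t]⟩
  have d1 := (Sys.X_fam hY isOpen_Ioo f1 (k + 1) 0).der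
  have d2 := (Sys.P_fam hY isOpen_Ioo f1 (Sys.Fam.const hY (hh.ex hY)) (k + 1) 0).der 0
    (by simp) (s0 I Cf)
  have key := sb_second hm (φ1 := fun t => (GS k I ν).P (k + 1) 0 (fun s => H s + t * h s) h
      (s0 I Cf) - α - Λ * (2 * t)) (by
      filter_upwards [Ioo_mem_nhds (by norm_num : (-1 : ℝ) < 0) one_pos] with t ht
      exact (((d1 t ht _).sub ((hasDerivAt_id' t).const_mul α)).sub
        ((hasDerivAt_pow 2 t).const_mul Λ)).congr_deriv (by simp))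
    ((d2.sub_const α).sub (((hasDerivAt_id' (0 : ℝ)).const_mul 2).const_mul Λ))
  have h3 := Sys.var_le_D hY hH (hh.ex hY) (k + 1) 0 (1 / k) (fun i _ _ =>
    le_min (by rw [div_le_one hk']; exact_mod_cast hk)
      (div_le_div_of_nonneg_right (by simp) hk'.le)) (s0 I Cf)
  simp only [zero_mul, add_zero, Sys.P, integral_zero, zero_add] at key
  rw [one_div, inv_mul_le_iff₀ hk'] at h3
  refine h3.trans ?_
  nlinarith

end

end Vale.Agent.P146
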