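import Vale.Agent.P146M.Core2

/-! One dimensional Gaussian inequalities and log-sum-exp facts. -/

set_option linter.all false

namespace Vale.Agent.P146

open MeasureTheory ProbabilityTheory Real Finset Vale.Agent.P146M

noncomputable section

abbrev γ1 : Measure ℝ := gaussianReal 0 1

lemma int_eabs (K : ℝ) : Integrable (fun w => exp (K * |w|)) γ1 := by
  refine ((integrable_exp_mul_gaussianReal (μ := 0) (v := 1) K).add
    (integrable_exp_mul_gaussianReal (μ := 0) (v := 1) (-K))).mono' (by fun_prop)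
    (ae_of_all _ fun w => ?_)
  rw [Real.norm_eq_abs, abs_exp]
  simp only [Pi.add_apply]
  rcases abs_cases w with h | h <;> rw [h.1]
  · linarith [exp_pos (-K * w)]
  · have : K * -w = -K * w := by ring
    rw [this]; linarith [exp_pos (K * w)]

lemma int_gr {f : ℝ → ℝ} (hf : Measurable f) (C K : ℝ) (h : ∀ w, |f w| ≤ C * exp (K * |w|)) :
    Integrable f γ1 :=
  ((int_eabs K).const_mul C).mono' hf.aestronglyMeasurable (ae_of_all _ h)

lemma int_lin {f : ℝ → ℝ} (hf : Measurable f) {C : ℝ} (h : ∀ w, |f w| ≤ C * (1 + |w|)) :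
    Integrable f γ1 := by
  have h0 : 0 ≤ C := by simpa using (abs_nonneg _).trans (h 0)
  refine int_gr hf C 1 fun w => (h w).trans (mul_le_mul_of_nonneg_left ?_ h0)
  linarith [add_one_le_exp (1 * |w|)]

lemma int_exp_lin {f : ℝ → ℝ} (hf : Measurable f) {C : ℝ} (h : ∀ w, |f w| ≤ C * (1 + |w|)) :
    Integrable (fun w => exp (f w)) γ1 := by
  refine int_gr hf.exp (exp C) C fun w => ?_
  rw [abs_exp, ← exp_add]
  exact exp_le_exp.2 (by linarith [le_abs_self (f w), h w])

lemma cm (f : ℝ → ℝ) (u : ℝ) :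
    ∫ w, f w ∂γ1 = ∫ w, f (w + u) * exp (-(u * w) - u ^ 2 / 2) ∂γ1 := by
  rw [integral_gaussianReal_eq_integral_smul one_ne_zero,
    integral_gaussianReal_eq_integral_smul one_ne_zero, ← integral_add_right_eq_self _ u]
  refine integral_congr_ae (ae_of_all _ fun w => ?_)
  simp only [gaussianPDFReal, NNReal.coe_one, mul_one, smul_eq_mul, sub_zero]
  have : exp (-(w + u) ^ 2 / 2) = exp (-w ^ 2 / 2) * exp (-(u * w) - u ^ 2 / 2) := by
    rw [← exp_add]; ring_nf
  rw [this]; ring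

lemma shift {ψ : ℝ → ℝ} (hψ : Measurable ψ) {C : ℝ} (h : ∀ w, |ψ w| ≤ C * (1 + |w|)) (u : ℝ) :
    (∫ w, ψ (w + u) ∂γ1) - u ^ 2 / 2 ≤ log (∫ w, exp (ψ w) ∂γ1) := by
  have h0 : 0 ≤ C := by simpa using (abs_nonneg _).trans (h 0)
  have b1 : ∀ w, |ψ (w + u)| ≤ C * (1 + |u|) * (1 + |w|) := fun w => (h _).trans (by
    have := abs_add_le w u
    rw [mul_assoc]
    refine mul_le_mul_of_nonneg_left ?_ h0
    nlinarith [abs_nonneg u, abs_nonneg w, mul_nonneg (abs_nonneg u) (abs_nonneg w)])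
  have m1 : Measurable fun w => ψ (w + u) := hψ.comp (by fun_prop)
  have i1 := int_lin m1 b1
  have i2 : Integrable (fun w : ℝ => u * w) γ1 :=
    ((memLp_id_gaussianReal (μ := 0) (v := 1) 1).integrable le_rfl).const_mul u
  have m2 : Measurable fun w => ψ (w + u) + (-(u * w) - u ^ 2 / 2) := by fun_prop
  have b2 : ∀ w, |ψ (w + u) + (-(u * w) - u ^ 2 / 2)| ≤
      (C * (1 + |u|) + |u| + u ^ 2) * (1 + |w|) := fun w => by
    have a1 := b1 w
    have a2 : |(-(u * w) - u ^ 2 / 2)| ≤ |u| * |w| + u ^ 2 := by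
      refine (abs_sub _ _).trans ?_
      rw [abs_neg, abs_mul, abs_of_nonneg (by positivity : 0 ≤ u ^ 2 / 2)]
      nlinarith [sq_nonneg u]
    refine (abs_add_le _ _).trans ?_
    nlinarith [abs_nonneg u, abs_nonneg w, mul_nonneg (sq_nonneg u) (abs_nonneg w)]
  have j := c2_jensen (int_lin m2 b2) (int_exp_lin m2 b2)
  have e1 : ∫ w, (ψ (w + u) + (-(u * w) - u ^ 2 / 2)) ∂γ1 = (∫ w, ψ (w + u) ∂γ1) - u ^ 2 / 2 := by
    have i3 : Integrable (fun w : ℝ => -(u * w)) γ1 := i2.neg
    have i4 : Integrable (fun w : ℝ => -(u * w) - u ^ 2 / 2) γ1 := i3.sub (integrable_const _)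
    rw [integral_add i1 i4, integral_sub i3 (integrable_const _),
      integral_neg, integral_const_mul, integral_id_gaussianReal]
    simp [sub_eq_add_neg]
  rw [e1] at j
  rw [le_log_iff_exp_le (integral_exp_pos (int_exp_lin hψ h)), cm (fun w => exp (ψ w)) u]
  simpa only [exp_add] using j

lemma int_pow (p : ℕ) : Integrable (fun w : ℝ => |w| ^ p) γ1 := by
  refine int_gr (by fun_prop) (p.factorial) 1 fun w => ?_
  have := pow_div_factorial_le_exp |w| (abs_nonneg w) p
  rw [div_le_iff₀ (by positivity)] at this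
  rw [abs_pow, abs_abs, one_mul]
  linarith

/-- fourth moment constant -/
def M4 : ℝ := ∫ w : ℝ, |w| ^ 4 ∂γ1

lemma M4_nonneg : 0 ≤ M4 := integral_nonneg fun w => by positivity

lemma int_sq : ∫ w : ℝ, |w| ^ 2 ∂γ1 = 1 := by
  have h := variance_id_gaussianReal (μ := 0) (v := 1)
  rw [variance_eq_integral (by fun_prop)] at h
  simpa [integral_id_gaussianReal] using h

lemma int_abs_le : ∫ w : ℝ, |w| ∂γ1 ≤ 1 := by
  have i1 : Integrable (fun w : ℝ => |w|) γ1 := by simpa using int_pow 1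
  have := c2_sq_le i1 (int_pow 2)
  rw [int_sq] at this
  nlinarith

/-- variance of a function with almost constant slope -/
lemma var_slope {G d : ℝ → ℝ} (hG : Measurable G) (hd : Measurable d) {L : ℝ} (hL : 0 ≤ L)
    (h1 : ∀ w, |G w - G 0| ≤ |d 0| * |w| + L * |w| ^ 2) (h2 : ∀ w, |d w - d 0| ≤ L * |w|) :
    (∫ w, G w ^ 2 ∂γ1) - (∫ w, G w ∂γ1) ^ 2 ≤ 4 * (∫ w, d w ∂γ1) ^ 2 + (4 + 2 * M4) * L ^ 2 := by
  have i1 : Integrable (fun w : ℝ => |w|) γ1 := by simpa using int_pow 1
  have iB : Integrable (fun w : ℝ => 2 * d 0 ^ 2 * |w| ^ 2 + 2 * L ^ 2 * |w| ^ 4) γ1 :=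
    ((int_pow 2).const_mul _).add ((int_pow 4).const_mul _)
  have b : ∀ w, (G w - G 0) ^ 2 ≤ 2 * d 0 ^ 2 * |w| ^ 2 + 2 * L ^ 2 * |w| ^ 4 := fun w => by
    have a1 := pow_le_pow_left₀ (abs_nonneg _) (h1 w) 2
    rw [sq_abs] at a1
    have a2 : d 0 ^ 2 = |d 0| ^ 2 := (sq_abs _).symm
    rw [a2]
    nlinarith [sq_nonneg (|d 0| * |w| - L * |w| ^ 2)]
  have iD2 : Integrable (fun w => (G w - G 0) ^ 2) γ1 :=
    iB.mono' (by fun_prop) (ae_of_all _ fun w => by
      rw [Real.norm_eq_abs, abs_of_nonneg (sq_nonneg _)]; exact b w)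
  have iD : Integrable (fun w => G w - G 0) γ1 :=
    ((i1.const_mul |d 0|).add ((int_pow 2).const_mul L)).mono' (by fun_prop) (ae_of_all _ h1)
  have e1 : ∫ w, G w ∂γ1 = (∫ w, (G w - G 0) ∂γ1) + G 0 := by
    have := integral_add iD (integrable_const (G 0))
    simpa using this
  have e2 : ∫ w, G w ^ 2 ∂γ1 =
      (∫ w, (G w - G 0) ^ 2 ∂γ1) + 2 * G 0 * (∫ w, (G w - G 0) ∂γ1) + G 0 ^ 2 := by
    have := integral_add (iD2.add (iD.const_mul (2 * G 0))) (integrable_const (G 0 ^ 2))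
    simp only [Pi.add_apply] at this
    rw [integral_add iD2 (iD.const_mul _), integral_const_mul] at this
    simp only [integral_const, probReal_univ, one_smul] at this
    rw [← this]
    exact integral_congr_ae (ae_of_all _ fun w => by simp only; ring)
  have e3 : ∫ w, (G w - G 0) ^ 2 ∂γ1 ≤ 2 * d 0 ^ 2 + 2 * L ^ 2 * M4 := by
    refine (integral_mono iD2 iB b).trans ?_
    rw [integral_add ((int_pow 2).const_mul _) ((int_pow 4).const_mul _), integral_const_mul,
      integral_const_mul, int_sq, M4]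
    simp
  have id : Integrable (fun w => d w - d 0) γ1 :=
    (i1.const_mul L).mono' (by fun_prop) (ae_of_all _ h2)
  have e4 : ∫ w, d w ∂γ1 = (∫ w, (d w - d 0) ∂γ1) + d 0 := by
    have := integral_add id (integrable_const (d 0))
    simpa using this
  have e5 : |∫ w, (d w - d 0) ∂γ1| ≤ L := by
    refine (norm_integral_le_of_norm_le (f := fun w => d w - d 0) (i1.const_mul L)
      (ae_of_all _ h2)).trans ?_
    rw [integral_const_mul]
    nlinarith [int_abs_le]
  rw [e1, e2, e4]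
  have e6 := pow_le_pow_left₀ (abs_nonneg _) e5 2
  rw [sq_abs] at e6
  nlinarith [sq_nonneg (∫ w, (G w - G 0) ∂γ1), sq_nonneg (2 * (∫ w, (d w - d 0) ∂γ1) + d 0)]

lemma exp_le_quad (x : ℝ) : exp x ≤ 1 + x + x ^ 2 * exp |x| := by
  have h := Complex.norm_exp_sub_sum_le_norm_mul_exp (x : ℂ) 2
  simp only [sum_range_succ, sum_range_zero, pow_zero, Nat.factorial_zero, Nat.cast_one, div_one,
    zero_add, pow_one, Nat.factorial_one, Complex.norm_real, Real.norm_eq_abs, sq_abs] at h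
  have e : Complex.exp x - (1 + x) = ((exp x - (1 + x) : ℝ) : ℂ) := by push_cast; ring
  rw [e, Complex.norm_real, Real.norm_eq_abs] at h
  linarith [le_abs_self (exp x - (1 + x))]

/-- constant of the concentration inequality -/
def Kc (B : ℝ) : ℝ := ∫ w : ℝ, (|w| + 1) ^ 2 * exp (B * (|w| + 1)) ∂γ1

lemma Kc_nonneg (B : ℝ) : 0 ≤ Kc B := integral_nonneg fun w => by positivity

lemma conc1 {G : ℝ → ℝ} (hG : Measurable G) {L B : ℝ} (hL : 0 ≤ L) (hB : L ≤ B)
    (h : ∀ w w', |G w - G w'| ≤ L * |w - w'|) :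
    log (∫ w, exp (G w) ∂γ1) ≤ (∫ w, G w ∂γ1) + Kc B * L ^ 2 := by
  have i1 : Integrable (fun w : ℝ => |w|) γ1 := by simpa using int_pow 1
  have b0 : ∀ w, |G w| ≤ (|G 0| + L) * (1 + |w|) := fun w => by
    have := h w 0
    rw [sub_zero] at this
    have h2 := abs_sub_abs_le_abs_sub (G w) (G 0)
    nlinarith [abs_nonneg (G 0), abs_nonneg w, mul_nonneg (abs_nonneg (G 0)) (abs_nonneg w)]
  have iG := int_lin hG b0
  set c := ∫ w, G w ∂γ1
  have b1 : ∀ w, |G w - c| ≤ L * (|w| + 1) := fun w => by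
    have e : G w - c = ∫ w', (G w - G w') ∂γ1 := by
      rw [integral_sub (integrable_const _) iG]; simp [c]
    rw [e]
    have i3 : Integrable (fun w' : ℝ => |w| + |w'|) γ1 := (integrable_const |w|).add i1
    refine (norm_integral_le_of_norm_le (f := fun w' => G w - G w') (i3.const_mul L)
      (ae_of_all _ fun w' => (h w w').trans (mul_le_mul_of_nonneg_left (abs_sub _ _) hL))).trans ?_
    rw [integral_const_mul, integral_add (integrable_const _) i1]
    simp only [integral_const, probReal_univ, one_smul]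
    nlinarith [int_abs_le]
  have iK : Integrable (fun w : ℝ => (|w| + 1) ^ 2 * exp (B * (|w| + 1))) γ1 := by
    refine int_gr (by fun_prop) (exp B) (B + 2) fun w => ?_
    rw [abs_of_nonneg (by positivity)]
    have a1 := add_one_le_exp |w|
    have a2 : (|w| + 1) ^ 2 ≤ exp |w| ^ 2 := pow_le_pow_left₀ (by positivity) a1 2
    refine (mul_le_mul_of_nonneg_right a2 (exp_pos _).le).trans (le_of_eq ?_)
    rw [← exp_nat_mul, ← exp_add, ← exp_add]; push_cast; ring_nf
  have iE := int_exp_lin hG b0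
  have b2 : ∀ w, exp (G w) ≤
      exp c * (1 + (G w - c) + L ^ 2 * ((|w| + 1) ^ 2 * exp (B * (|w| + 1)))) := fun w => by
    have e : exp (G w) = exp c * exp (G w - c) := by rw [← exp_add]; ring_nf
    rw [e]
    refine mul_le_mul_of_nonneg_left ((exp_le_quad _).trans ?_) (exp_pos _).le
    have a1 := pow_le_pow_left₀ (abs_nonneg _) (b1 w) 2
    rw [sq_abs, mul_pow] at a1
    have a2 : exp |G w - c| ≤ exp (B * (|w| + 1)) :=
      exp_le_exp.2 ((b1 w).trans (mul_le_mul_of_nonneg_right hB (by positivity)))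
    rw [← mul_assoc]
    linarith [mul_le_mul a1 a2 (exp_pos _).le (by positivity)]
  have i3 : Integrable (fun w => G w - c) γ1 := iG.sub (integrable_const _)
  have i2 : Integrable (fun w => 1 + (G w - c)) γ1 := (integrable_const _).add i3
  have e2 := integral_mono iE (((i2.add (iK.const_mul (L ^ 2)))).const_mul (exp c)) b2
  simp only [Pi.add_apply] at e2
  rw [integral_const_mul, integral_add i2 (iK.const_mul _), integral_add (integrable_const _)
    i3, integral_sub iG (integrable_const _), integral_const_mul] at e2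
  simp only [integral_const, probReal_univ, one_smul] at e2
  rw [log_le_iff_le_exp (integral_exp_pos iE), exp_add]
  refine e2.trans (mul_le_mul_of_nonneg_left ?_ (exp_pos _).le)
  have := add_one_le_exp (Kc B * L ^ 2)
  simp only [Kc] at this ⊢
  linarith

/-! log-sum-exp -/

variable {S : Type} [Fintype S] [Nonempty S]

def lse (a : S → ℝ) : ℝ := log (∑ σ, exp (a σ))

def gib (b a : S → ℝ) : ℝ := (∑ σ, exp (a σ) * b σ) / ∑ σ, exp (a σ)

lemma Z_pos (a : S → ℝ) : 0 < ∑ σ, exp (a σ) := sum_pos (fun _ _ => exp_pos _) univ_nonempty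

lemma lse_add_ge (a b : S → ℝ) : lse a + gib b a ≤ lse (a + b) := by
  have hZ := Z_pos a
  rw [lse, lse, le_log_iff_exp_le (Z_pos _), exp_add, exp_log hZ]
  set c := gib b a
  have h1 : ∑ σ, exp (a σ) * (exp c * (1 + (b σ - c))) ≤ ∑ σ, exp ((a + b) σ) := by
    refine sum_le_sum fun σ _ => ?_
    have e : exp ((a + b) σ) = exp (a σ) * (exp c * exp (b σ - c)) := by
      rw [← exp_add, ← exp_add]; simp
    rw [e]
    gcongr
    linarith [add_one_le_exp (b σ - c)]
  refine le_trans (le_of_eq ?_) h1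
  have e2 : ∑ σ, exp (a σ) * b σ = c * ∑ σ, exp (a σ) := by simp only [c, gib]; field_simp
  have e3 : ∀ σ, exp (a σ) * (exp c * (1 + (b σ - c))) =
      exp c * (1 - c) * exp (a σ) + exp c * (exp (a σ) * b σ) := fun σ => by ring
  simp only [e3, sum_add_distrib, ← mul_sum, e2]
  ring

lemma gib_abs_le {b : S → ℝ} {κ : ℝ} (h : ∀ σ, |b σ| ≤ κ) (a : S → ℝ) : |gib b a| ≤ κ := by
  have hZ := Z_pos a
  rw [gib, abs_div, abs_of_pos hZ, div_le_iff₀ hZ, mul_sum]
  refine (abs_sum_le_sum_abs _ _).trans (sum_le_sum fun σ _ => ?_)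
  rw [abs_mul, abs_exp, mul_comm]
  exact mul_le_mul_of_nonneg_right (h σ) (exp_pos _).le

lemma gib_lin (b c a : S → ℝ) (u : ℝ) : gib (b + u • c) a = gib b a + u * gib c a := by
  simp only [gib, Pi.add_apply, Pi.smul_apply, smul_eq_mul, mul_add, sum_add_distrib, add_div,
    mul_left_comm _ u, ← mul_sum, mul_div_assoc]

lemma gib_smul (c a : S → ℝ) (u : ℝ) : gib (u • c) a = u * gib c a := by
  simp only [gib, Pi.smul_apply, smul_eq_mul, mul_left_comm _ u, ← mul_sum, mul_div_assoc]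

lemma lse_lip (a b : S → ℝ) : |lse (a + b) - lse a| ≤ ‖b‖ := by
  have h1 := lse_add_ge a b
  have h2 := lse_add_ge (a + b) (-b)
  rw [add_neg_cancel_right] at h2
  have h3 := gib_abs_le (b := b) (fun σ => norm_le_pi_norm b σ) a
  have h4 := gib_abs_le (b := -b) (κ := ‖b‖) (fun σ => by
    simpa using norm_le_pi_norm b σ) (a + b)
  rw [abs_le] at *
  constructor <;> linarith [h3.1, h4.1]

lemma gib_lip {c : S → ℝ} {κ : ℝ} (h : ∀ σ, |c σ| ≤ κ) (a : S → ℝ) (w : ℝ) :
    |gib c (a + w • c) - gib c a| ≤ κ ^ 2 * |w| := by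
  have hd : ∀ t : ℝ, HasDerivAt (fun t : ℝ => gib c (a + t • c))
      (gib (fun σ => c σ ^ 2) (a + t • c) - gib c (a + t • c) ^ 2) t := fun t => by
    have d1 : ∀ σ, HasDerivAt (fun t : ℝ => exp ((a + t • c) σ)) (exp ((a + t • c) σ) * c σ) t :=
      fun σ => by
        simpa using (((hasDerivAt_id t).mul_const (c σ)).const_add (a σ)).exp
    have d2 := (HasDerivAt.fun_sum (u := univ) fun σ _ => (d1 σ).mul_const (c σ)).div
      (HasDerivAt.fun_sum (u := univ) fun σ _ => d1 σ) (Z_pos _).ne'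
    refine d2.congr_deriv ?_
    have hZ := Z_pos (a + t • c)
    simp only [gib, mul_assoc, ← sq]
    field_simp
  have hb : ∀ t : ℝ, ‖gib (fun σ => c σ ^ 2) (a + t • c) - gib c (a + t • c) ^ 2‖ ≤ κ ^ 2 :=
    fun t => by
      have a1 := gib_abs_le (b := fun σ => c σ ^ 2) (κ := κ ^ 2) (fun σ => by
        rw [abs_pow]; exact pow_le_pow_left₀ (abs_nonneg _) (h σ) 2) (a + t • c)
      have a2 := pow_le_pow_left₀ (abs_nonneg _) (gib_abs_le h (a + t • c)) 2
      have a3 : 0 ≤ gib (fun σ => c σ ^ 2) (a + t • c) :=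
        div_nonneg (sum_nonneg fun _ _ => by positivity) (Z_pos _).le
      rw [sq_abs] at a2
      rw [Real.norm_eq_abs, abs_le] at *
      constructor <;> nlinarith [a1.2, sq_nonneg (gib c (a + t • c))]
  have := Convex.norm_image_sub_le_of_norm_hasDerivWithin_le (s := Set.univ)
    (fun t _ => (hd t).hasDerivWithinAt) (fun t _ => hb t) convex_univ (Set.mem_univ 0)
    (Set.mem_univ w)
  simpa using this

lemma lse_slope {c : S → ℝ} {κ : ℝ} (h : ∀ σ, |c σ| ≤ κ) (a : S → ℝ) (w : ℝ) :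
    |lse (a + w • c) - lse a - w * gib c a| ≤ κ ^ 2 * |w| ^ 2 := by
  have h1 := lse_add_ge a (w • c)
  have h2 := lse_add_ge (a + w • c) ((-w) • c)
  rw [neg_smul, add_neg_cancel_right, ← neg_smul, gib_smul] at h2
  rw [gib_smul] at h1
  have h3 := gib_lip h a w
  have h4 : w * (gib c (a + w • c) - gib c a) ≤ κ ^ 2 * |w| ^ 2 := by
    refine (le_abs_self _).trans ?_
    rw [abs_mul]
    nlinarith [abs_nonneg w]
  rw [abs_le]
  constructor <;> nlinarith [sq_nonneg (κ * |w|)]

lemma meas_lse : Measurable (lse : (S → ℝ) → ℝ) := by unfold lse; fun_prop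

lemma meas_gib (b : S → ℝ) : Measurable (gib b) := by unfold gib; fun_prop

end

end Vale.Agent.P146
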