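import Vale.Agent.P146.Lin
import Vale.Agent.P146.Geb

/-! The single spin functional: overlaps below a level with small exponent. -/

set_option linter.all false

namespace Vale.Agent.P146

open MeasureTheory ProbabilityTheory Real Finset Filter Topology Vale.Agent.P146M
open scoped ENNReal

noncomputable section

section Gen

variable {S Ω : Type*} [MeasurableSpace S] [MeasurableSpace Ω] {Y Y' : Sys S Ω} {H g : S → ℝ}

lemma pr_trunk (hY : Y.OK) (hH : Y.Lin H) (hg : Y.Ex g) (l n n' j : ℕ) (s : S) :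
    ∫ p, g p.1 * g p.2 ∂Y.pr l (n + n') j H s = ∫ p, Y.P n' (j + l + n) H g p.1 *
      Y.P n' (j + l + n) H g p.2 ∂Y.pr l n j (Y.X n' (j + l + n) H) s := by
  rw [Sys.integral_pr_mul hY hH hg hg, Sys.integral_pr_mul hY (Sys.lin_X hY hH _ _)
    (Sys.ex_P hY hH hg _ _) (Sys.ex_P hY hH hg _ _), Sys.X_add,
    funext (Sys.P_add hY hH hg n n' (j + l))]

lemma scale {m : ℝ} (hm : m ≠ 0) (hμ : Y'.μ = Y.μ) (ha : Y'.a = Y.a) {n j : ℕ}
    (hζ : ∀ i, j ≤ i → i < j + n → Y.ζ i = Y'.ζ i * m) (H : S → ℝ) :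
    (Y'.X n j (fun s => m * H s) = fun s => m * Y.X n j H s) ∧
      Y'.m n j (fun s => m * H s) = Y.m n j H := by
  induction n generalizing j with
  | zero => exact ⟨rfl, rfl⟩
  | succ n ih =>
    obtain ⟨h1, h2⟩ := ih (j := j + 1) fun i a b => hζ i (by omega) (by omega)
    have h3 := hζ j le_rfl (by omega)
    have h4 : Y'.X (n + 1) j (fun s => m * H s) = fun s => m * Y.X (n + 1) j H s := by
      funext s
      simp only [Sys.X, Sys.T, h1, hμ, ha, h3, mul_assoc, mul_inv]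
      field_simp
    refine ⟨h4, funext fun s => ?_⟩
    simp only [Sys.X] at h4
    rw [h1] at h4
    simp only [Sys.m, Sys.stepM, h2, h4, h1, hμ, ha, h3, ← mul_sub, mul_assoc]

lemma scale_pr {m : ℝ} (hm : m ≠ 0) (hμ : Y'.μ = Y.μ) (ha : Y'.a = Y.a) {l n : ℕ}
    (hζ : ∀ i, i < l + n → Y.ζ i = Y'.ζ i * m) (H : S → ℝ) (s : S) :
    Y'.pr l n 0 (fun s => m * H s) s = Y.pr l n 0 H s := by
  obtain ⟨h1, h2⟩ := scale hm hμ ha (n := n) (j := 0 + l) (fun i _ b => hζ i (by omega)) H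
  rw [Sys.pr, Sys.pr, h1, h2, (scale hm hμ ha (fun i _ b => hζ i (by omega)) _).2]

lemma pr_add_const (hY : Y.OK) (hH : Y.Lin H) (c : ℝ) (l n j : ℕ) (s : S) :
    Y.pr l n j (fun s => H s + c) s = Y.pr l n j H s := by
  rw [Sys.pr, Sys.pr, Sys.X_add_const hY hH, Sys.m_add_const hY hH,
    Sys.m_add_const hY (Sys.lin_X hY hH _ _)]

end Gen

variable {k : ℕ} {v : ℕ → ℝ}

lemma rs_law (hk : 0 < k) (hv : ∀ i, 0 ≤ v i) (n j : ℕ) (x : ℝ) : (RS k v).m n j (fun _ => 0) x =
    gaussianReal x (∑ i ∈ range n, v (j + i)).toNNReal := by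
  have hY := rs_ok hk v
  have h0 := Sys.Lin.const hY 0
  induction n generalizing j x with
  | zero => simp [Sys.m]
  | succ n ih =>
    refine Measure.ext_of_lintegral _ fun f hf => ?_
    have hm' := Sys.measurable_m hY h0 n (j + 1)
    have hm2 : Measurable fun a => ∫⁻ x, f x ∂(RS k v).m n (j + 1) (fun _ => 0) a :=
      (Measure.measurable_lintegral hf).comp hm'
    have e1 : gaussianReal x (v j).toNNReal = γ1.map fun w => x + √(v j) * w := by
      rw [show (fun w => x + √(v j) * w) = (x + ·) ∘ (√(v j) * ·) from rfl,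
        ← Measure.map_map (by fun_prop) (by fun_prop), gaussianReal_map_const_mul,
        gaussianReal_map_const_add]
      congr 1
      · simp
      · ext; simp [sq_sqrt', max_comm]
    have e2 := gaussianReal_conv_gaussianReal (m₁ := x) (m₂ := 0) (v₁ := (v j).toNNReal)
      (v₂ := (∑ i ∈ range n, v (j + 1 + i)).toNNReal)
    rw [add_zero, ← Real.toNNReal_add (hv _) (sum_nonneg fun _ _ => hv _)] at e2
    have e3 : ∑ i ∈ range (n + 1), v (j + i) = v j + ∑ i ∈ range n, v (j + 1 + i) := by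
      rw [sum_range_succ', add_comm]
      simp only [add_zero, add_assoc, add_comm 1]
    rw [Sys.m, Measure.lintegral_bind hm'.aemeasurable hf.aemeasurable, Sys.X_const hY,
      Sys.lintegral_stepM hY h0 j x hm2, show (RS k v).T j (fun _ => 0) = fun _ => 0 from
        Sys.X_const hY 0 1 j, e3, ← e2, Measure.lintegral_conv hf, e1,
      lintegral_map (Measurable.lintegral_prod_right (by fun_prop)) (by fun_prop)]
    simp only [sub_self, mul_zero, exp_zero, ENNReal.ofReal_one, one_mul]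
    refine lintegral_congr fun w => ?_
    rw [ih, ← lintegral_map hf (measurable_const_add _), gaussianReal_map_const_add, zero_add]
    rfl

lemma rs_P (hk : 0 < k) (hv : ∀ i, 0 ≤ v i) {g : ℝ → ℝ} (hg : Measurable g) (n j : ℕ) :
    (RS k v).P n j (fun _ => 0) g = Kh (∑ i ∈ range n, v (j + i)) g := by
  funext x
  rw [Sys.P, rs_law hk hv, Kh_eq hg, ← integral_map (measurable_const_add x).aemeasurable
    hg.aestronglyMeasurable, gaussianReal_map_const_add, zero_add]

/-- constant of the tilt comparison -/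
def Ct (T : ℝ) : ℝ := 6 * (1 + 2 * exp (8 * T)) * √(2 * exp (8 * T))

lemma Ct_nonneg (T : ℝ) : 0 ≤ Ct T := by unfold Ct; positivity

lemma tilt (hv : ∀ i, 0 ≤ v i) {j l : ℕ} (hj : 0 < j) (hjk : j ≤ k) (hl : l ≤ j) {T : ℝ}
    (hT : ∑ i ∈ range j, v i ≤ T) {Φ f : ℝ → ℝ} (hΦ : (RS k v).Lin Φ)
    (hL : ∀ x, |Φ x - Φ 0| ≤ |x|) (hf : Bd f) :
    |(∫ p, f p.1 * f p.2 ∂(RS k v).pr l (j - l) 0 Φ 0) -
      Qh f (∑ i ∈ range j, v i) (∑ i ∈ range l, v i)| ≤ Ct T * √(j / k) := by
  have hY := rs_ok hj v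
  have hk : 0 < k := hj.trans_le hjk
  have hj' : (0 : ℝ) < j := by exact_mod_cast hj
  have hk' : (0 : ℝ) < k := by exact_mod_cast hk
  set m : ℝ := j / k with hm
  have m0 : 0 < m := by positivity
  have m1 : m ≤ 1 := by rw [div_le_one hk']; exact_mod_cast hjk
  have h0 := Sys.Lin.const hY 0
  have hΦ' : (RS j v).Lin fun x => m * Φ x := Sys.Lin.const_mul (Y := RS j v) hΦ m
  have h1 := hΦ'.add (Sys.Lin.const hY (-(m * Φ 0)))
  have xf : (RS j v).Ex f := Sys.Ex.of_bdd hY hf.1 1 hf.2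
  have e1 : (RS k v).pr l (j - l) 0 Φ 0 =
      (RS j v).pr l (j - l) 0 (fun x => m * Φ x + -(m * Φ 0)) 0 := by
    rw [pr_add_const hY hΦ', scale_pr (Y := RS k v) (Y' := RS j v) m0.ne' rfl rfl fun i hi => ?_]
    have a1 : (i : ℝ) + 1 ≤ j := by exact_mod_cast (by omega : i + 1 ≤ j)
    have a2 : (j : ℝ) ≤ k := by exact_mod_cast hjk
    simp only [RS, hm]
    rw [min_eq_right ((div_le_one hk').2 (by linarith)), min_eq_right ((div_le_one hj').2 a1)]
    field_simp
  have e2 : ∫ p, f p.1 * f p.2 ∂(RS j v).pr l (j - l) 0 (fun _ => 0) 0 =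
      Qh f (∑ i ∈ range j, v i) (∑ i ∈ range l, v i) := by
    rw [Sys.integral_pr_mul hY h0 xf xf, Sys.X_const hY, rs_P hj hv hf.1,
      rs_P hj hv (g := fun s => Kh _ f s * Kh _ f s) ((meas_Kh hf.1 _).mul (meas_Kh hf.1 _)), Qh, ← sum_range_add_sum_Ico _ hl,
      sum_Ico_eq_sum_range]
    simp only [zero_add, add_sub_cancel_left, sq]
  have hA : (RS j v).P (l + (j - l)) 0 (fun _ => 0)
      (fun x => exp (4 * |m * Φ x + -(m * Φ 0) - 0|)) 0 ≤ 1 + m * (2 * exp (8 * T)) := by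
    have i1 := (Sys.dl_e_ex hY h0 h1).integrable_m hY h0 (l + (j - l)) 0 0
    have i2 := (Sys.ex_exp_ν hY 4).integrable_m hY h0 (l + (j - l)) 0 0
    rw [Sys.P]
    rw [rs_law hj hv, add_tsub_cancel_of_le hl] at i1 i2 ⊢
    have h2 := integral_exp_abs_gauss (∑ i ∈ range j, v (0 + i)).toNNReal 4
    have h3 := integral_mono i1 ((i2.const_mul m).add (integrable_const 1)) fun x => by
      have a1 : 4 * |m * Φ x + -(m * Φ 0) - 0| ≤ m * (4 * |x|) := by
        rw [sub_zero, ← sub_eq_add_neg, ← mul_sub, abs_mul, abs_of_pos m0]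
        nlinarith [mul_le_mul_of_nonneg_left (hL x) m0.le]
      have a2 := c2_exp_mul_le m0.le m1 (4 * |x|)
      simp only [Pi.add_apply, RS]
      linarith [exp_le_exp.2 a1]
    simp only [Pi.add_apply] at h3
    rw [integral_add (i2.const_mul m) (integrable_const _), integral_const_mul] at h3
    rw [Real.coe_toNNReal _ (sum_nonneg fun _ _ => hv _)] at h2
    simp only [integral_const, probReal_univ, one_smul, RS, zero_add] at h2 h3 ⊢
    have h4 : exp (4 ^ 2 * (∑ i ∈ range j, v i) / 2) ≤ exp (8 * T) := exp_le_exp.2 (by linarith)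
    nlinarith
  have h5 := Sys.CLpr hY (rs_mono j v) h0 h1 (G := fun p => f p.1 * f p.2)
    ((hf.1.comp measurable_fst).mul (hf.1.comp measurable_snd)) (fun p => by
      rw [abs_mul]; exact mul_le_one₀ (hf.2 _) (abs_nonneg _) (hf.2 _)) l (j - l) 0 0 hA
  rw [e1, ← e2]
  refine h5.trans ?_
  rw [add_sub_cancel_left, sqrt_mul m0.le, Ct, mul_comm √m, ← mul_assoc]
  have h6 : m * (2 * exp (8 * T)) ≤ 2 * exp (8 * T) :=
    mul_le_of_le_one_left (by positivity) m1
  refine mul_le_mul_of_nonneg_right (mul_le_mul_of_nonneg_right ?_ (sqrt_nonneg _)) (sqrt_nonneg _)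
  linarith

lemma lin_lc (k : ℕ) (v : ℕ → ℝ) : (RS k v).Lin fun x => log (cosh x) := ⟨by fun_prop, 1, fun x => by
  rw [abs_of_nonneg (log_nonneg (one_le_cosh x)), one_mul, log_le_iff_le_exp (cosh_pos x), cosh_eq]
  have h1 := exp_le_exp.2 (show x ≤ 1 + |x| by linarith [le_abs_self x])
  have h2 := exp_le_exp.2 (show -x ≤ 1 + |x| by linarith [neg_abs_le x])
  exact (show _ ≤ exp (1 + |x|) by linarith)⟩

lemma lc_lip (x t : ℝ) : |log (cosh (x + t)) - log (cosh x)| ≤ |t| := by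
  have h : ∀ x t : ℝ, log (cosh (x + t)) - log (cosh x) ≤ |t| := fun x t => by
    rw [sub_le_iff_le_add, log_le_iff_le_exp (cosh_pos _), exp_add, exp_log (cosh_pos _), cosh_eq,
      cosh_eq, neg_add, exp_add, exp_add]
    nlinarith [mul_le_mul_of_nonneg_left (exp_le_exp.2 (le_abs_self t)) (exp_pos x).le,
      mul_le_mul_of_nonneg_left (exp_le_exp.2 (neg_le_abs t)) (exp_pos (-x)).le]
  have h2 := h (x + t) (-t)
  rw [add_neg_cancel_right, abs_neg] at h2
  exact abs_le.2 ⟨by linarith, h x t⟩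

lemma bd_th : Bd fun x => sinh x / cosh x := ⟨by fun_prop, fun x => by
  rw [abs_div, abs_of_pos (cosh_pos x), div_le_one (cosh_pos x), abs_sinh, ← cosh_abs]
  exact (sinh_lt_cosh _).le⟩

lemma pS_eq (hk : 0 < k) (r : ℕ → ℝ) {l : ℕ} (hl : l ≤ k) : pS k νB xB r l =
    ∫ p, (sinh p.1 / cosh p.1) * (sinh p.2 / cosh p.2)
      ∂(RS k fun j => wS Unit k r j ()).pr l (k - l) 0 (fun x => log (cosh x)) 0 := by
  have := spin_B.prob
  set v : ℕ → ℝ := fun j => wS Unit k r j ()
  have hY := gs_ok (I := Unit) (ν := νB) hk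
  have hH := Rg.lin_Hv (ν := νB) (sp_ok spin_B le_rfl) hk fun j _ => v j
  have e : l + (k - l) = k := by omega
  have h1 := pr_trunk hY hH (GradAux.ex_x spin_B hk ()) l (k - l) 1 0 (s0 Unit Bool)
  rw [zero_add, e, id_TSp hk, id_PSp spin_B hk] at h1
  have h2 := Sys.Hom.pr_map hY (rs_ok hk v) (l := l) (n := k - l) (j := 0)
    (by rw [e]; exact id_homR (ν := νB) v) (lin_lc k v) (s0 Unit Bool)
  have e1 : ∀ s : St Unit Bool, Φs νB xB (idF v k s) = log (cosh (idR v k s)) := fun s => by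
    rw [Φs, integral_fintype Integrable.of_finite, cosh_eq]
    congr 1
    simp only [measureReal_def, id_νB]
    simp [xB, idF, idR]
    ring
  have e2 : ∀ s : St Unit Bool, Mg νB xB () (idF v k s) =
      sinh (idR v k s) / cosh (idR v k s) := fun s => by
    rw [Mg, integral_fintype Integrable.of_finite, integral_fintype Integrable.of_finite, cosh_eq,
      sinh_eq]
    simp only [measureReal_def, id_νB]
    congr 1 <;> simp [xB, idF, idR] <;> ring
  have m1 : Measurable (idR v k : St Unit Bool → ℝ) := (id_homR (ν := νB) (k := k) v).mφ k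
  rw [zero_add, e, show idR v 0 (s0 Unit Bool) = 0 by simp [idR]] at h2
  rw [← h2, integral_map (m1.prodMap m1).aemeasurable (by fun_prop)]
  simp only [e1, e2] at h1
  simp only [pS, ov, Fintype.card_unit, Nat.cast_one, div_one, univ_unique, sum_singleton, pp,
    Nat.sub_add_comm hl]
  exact h1

theorem key1 {r r' : ℕ → ℝ} (hr : AdmR r) (hr' : AdmR r') {j l : ℕ} (hj : 0 < j) (hjk : j < k)
    (hl : l ≤ j) (he : ∀ i, j ≤ i → r' i = r i) {T : ℝ} (hT : r j ≤ T) :
    r j * pS k νB xB r' l ≤ r' l * pS k νB xB r j + 2 * T * (Ct T * √(j / k)) := by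
  have hk : 0 < k := hj.trans hjk
  set v : ℕ → ℝ := fun j => wS Unit k r j ()
  have hY := rs_ok hk v
  have hc := lin_lc k v
  set Φ := (RS k v).X (k - j) j fun x => log (cosh x)
  set f := (RS k v).P (k - j) j (fun x => log (cosh x)) fun x => sinh x / cosh x
  have bf : Bd f := ⟨Sys.measurable_P hY hc bd_th.1 _ _, Sys.dl_P_bd hY hc bd_th.2 _ _⟩
  have hL : ∀ x, |Φ x - Φ 0| ≤ |x| := fun x => by
    have hh : Sys.Hom (RS k v) (RS k v) (fun _ y => y + x) (fun _ => id) (k - j) j :=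
      ⟨fun _ => by fun_prop, fun _ _ _ => MeasurePreserving.id _, fun _ _ _ => rfl,
        fun _ _ _ _ _ => add_right_comm _ _ _, 1 + |x|, fun _ _ _ y => (abs_add_le _ _).trans (by
          simp only [RS]; nlinarith [abs_nonneg x, abs_nonneg y])⟩
    have h1 := hh.X_eq hY hc 0
    have h2 := Sys.dl_abs_le hY hc (Sys.Hom.lin hY hY hh (Nat.le_add_right _ _) le_rfl hc)
      (fun y => lc_lip y x) (k - j) j 0
    rwa [h1, zero_add] at h2
  have hodd : ∀ x, f (-x) = -f x := fun x => by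
    have hh : Sys.Hom (RS k v) (RS k v) (fun _ y => -y) (fun _ y => -y) (k - j) j :=
      ⟨fun _ => by fun_prop, fun _ _ _ => ⟨by fun_prop, by
        simpa [RS] using gaussianReal_map_neg (μ := 0) (v := 1)⟩, fun _ _ _ => rfl,
        fun _ _ _ _ _ => by simp only [RS]; ring, 1, fun _ _ _ y => by simp [RS]⟩
    have h1 := hh.P_eq hY hY hc bd_th.1 x
    simp only [cosh_neg, sinh_neg, neg_div, Sys.P, integral_neg] at h1
    exact h1.symm
  have main : ∀ q : ℕ → ℝ, AdmR q → (∀ i, j ≤ i → q i = r i) → ∀ l ≤ j,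
      |pS k νB xB q l - Qh f (r j) (q l)| ≤ Ct T * √(j / k) := fun q hq he l hl => by
    set u : ℕ → ℝ := fun j => wS Unit k q j ()
    have hU := rs_ok hk u
    have hh : Sys.Hom (RS k u) (RS k v) (fun _ => id) (fun _ => id) (k - j) j :=
      ⟨fun _ => measurable_id, fun _ _ _ => MeasurePreserving.id _, fun _ _ _ => rfl,
        fun i hi _ _ _ => by simp only [RS, u, v, wS, he i hi, he (i + 1) (by omega), id],
        1, fun _ _ _ y => by simp [RS]⟩
    have a1 : (RS k u).X (k - j) j (fun x => log (cosh x)) = Φ := funext (hh.X_eq hY hc)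
    have a2 : (RS k u).P (k - j) j (fun x => log (cosh x)) (fun x => sinh x / cosh x) = f :=
      funext (hh.P_eq hU hY hc bd_th.1)
    have a3 := pr_trunk hU (lin_lc k u) (Sys.Ex.of_bdd hU bd_th.1 1 bd_th.2) l (j - l) (k - j) 0 0
    rw [show j - l + (k - j) = k - l by omega, show 0 + l + (j - l) = j by omega, a1, a2] at a3
    have s1 : ∀ i < k, ∑ i ∈ range i, u i = q i := fun i hi => by
      have := GradAux.tele q hi
      rw [hq.1, sub_zero] at this
      exact this
    have a4 := tilt (k := k) (v := u) (fun i => GradAux.wS_nonneg hq.2 i ()) hj hjk.le hl (T := T)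
      (by rw [s1 j hjk, he j le_rfl]; exact hT) (Sys.lin_X hY hc (k - j) j) hL bf
    rwa [s1 j hjk, s1 l (by omega), he j le_rfl, ← a3, ← pS_eq hk q (by omega)] at a4
  have h0 : 0 ≤ r' l := hr'.1 ▸ hr'.2 (Nat.zero_le l)
  have h1 : r' l ≤ r j := he j le_rfl ▸ hr'.2 hl
  have h2 := gebelein bf hodd h0 h1
  have h3 := mul_le_mul_of_nonneg_left (abs_le.1 (main r' hr' he l hl)).2 (h0.trans h1)
  have h4 := mul_le_mul_of_nonneg_left (abs_le.1 (main r hr (fun _ _ => rfl) j le_rfl)).1 h0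
  have h5 : 0 ≤ Ct T * √(j / k) := mul_nonneg (Ct_nonneg T) (sqrt_nonneg _)
  nlinarith [mul_le_mul_of_nonneg_right hT h5, mul_le_mul_of_nonneg_right (h1.trans hT) h5]

end

end Vale.Agent.P146
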