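import Vale.Agent.P146.Var
import Vale.Agent.P146.Conv

/-! The SK model as a linear Gaussian system; the upper bound of Guerra. -/

set_option linter.all false

namespace Vale.Agent.P146

open MeasureTheory ProbabilityTheory Real Finset Filter Topology Vale.Agent.P146M

noncomputable section

section Gen

variable {I Cf : Type} [Fintype I] [MeasurableSpace Cf] [Nonempty Cf] {ν : Measure Cf}
  {x : Cf → I → ℝ} {k : ℕ}

/-- tangent bound -/
lemma Yv_tan (hx : Sg ν x) (hk : 0 < k) (w w' : ℕ → I → ℝ) : (Sp x).Yv k ν w +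
    (Sp x).GI k ν w (fun j i => 2 * ((√(w' j i) - √(w j i)) * √(w j i))) ≤ (Sp x).Yv k ν w' := by
  have := hx.prob
  have hY := gs_ok (I := I) (ν := ν) hk
  have hH := hx.lin hk w
  refine le_sub_iff_add_le'.1 (le_trans (le_of_eq ?_)
    (Sys.le_X_sub hY hH (hx.lin hk w') (k + 1) 0 (s0 I Cf)))
  have e : ∀ s, (Sp x).Hv k w' s - (Sp x).Hv k w s = ∑ j ∈ range k, ∑ i,
      (√(w' j i) - √(w j i)) * (s.2 j i * (Sp x).ψ k w i s) := fun s => by
    simp only [GradAux.Hv_Sp, ← sum_sub_distrib]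
    exact sum_congr rfl fun j _ => sum_congr rfl fun i _ => by simp only [Rg.ψ, Sp]; ring
  have hi : ∀ j ∈ range k, ∀ i, Integrable (fun s : St I Cf => (√(w' j i) - √(w j i)) *
      (s.2 j i * (Sp x).ψ k w i s)) (mm k ν ((Sp x).Hv k w)) := fun j hj i =>
    (integrable_mm hk hH (((lin_coord hk (mem_range.1 hj) i).ex hY).mul hY
      (Rg.ex_ψ hx.ok hk w i))).const_mul _
  show _ = ∫ s, _ ∂mm k ν ((Sp x).Hv k w)
  simp only [e]
  rw [integral_finsetSum _ fun j hj => integrable_finsetSum _ fun i _ => hi j hj i,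
    Rg.GI_eq hx.ok hk]
  refine sum_congr rfl fun j hj => ?_
  rw [integral_finsetSum _ fun i _ => hi j hj i]
  refine sum_congr rfl fun i _ => ?_
  rw [integral_const_mul, Rg.ibp_ψ hx.ok hk w (mem_range.1 hj)]
  ring

/-- all the variance on one level -/
def wL (I : Type) (b : ℝ) (a j : ℕ) (_ : I) : ℝ := if j = a then b else 0

lemma Yv_one (hx : Sg ν x) {a : ℕ} (ha : a < k) (b : ℝ) :
    exp ((((a : ℝ) + 1) / k) * (Sp x).Yv k ν (wL I b a)) = ∫ g, exp ((((a : ℝ) + 1) / k) *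
      log (∫ σ, exp (∑ i, g i * (√b * x σ i)) ∂ν)) ∂γ I := by
  have := hx.prob
  have hk : 0 < k := by omega
  have hY := gs_ok (I := I) (ν := ν) hk
  have hX := Sys.lin_X hY (hx.lin hk (wL I b a)) 1 k
  have e3 : (GS k I ν).ζ a = ((a : ℝ) + 1) / k :=
    min_eq_right ((div_le_one (by exact_mod_cast hk)).2 (by exact_mod_cast ha))
  set F : (I → ℝ) → ℝ := fun g => log (∫ σ, exp (∑ i, g i * (√b * x σ i)) ∂ν)
  have e1 : (GS k I ν).X 1 k ((Sp x).Hv k (wL I b a)) = fun s => F (s.2 a) := funext fun s => by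
    rw [id_T hk]
    simp only [GradAux.Hv_Sp, F]
    congr 3 with σ
    rw [sum_eq_single_of_mem a (mem_range.2 ha) fun j _ h => by simp [wL, h]]
    simp [wL, mul_comm]
  rw [e1] at hX
  have e4 : ∀ s, exp ((((a : ℝ) + 1) / k) * (GS k I ν).T a (fun s => F (s.2 a)) s) =
      ∫ g, exp ((((a : ℝ) + 1) / k) * F g) ∂γ I := fun s => by
    rw [← e3, Sys.exp_T hY hX, e3, show (GS k I ν).μ = ν.prod (γ I) from rfl]
    simp only [GS, if_pos ha, Function.update_self]
    rw [integral_fun_snd fun g => exp (((a : ℝ) + 1) / k * F g)]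
    simp
  obtain ⟨n, rfl⟩ : ∃ n, k = a + 1 + n := ⟨k - (a + 1), by omega⟩
  have e2 : (GS (a + 1 + n) I ν).X n (a + 1) (fun s => F (s.2 a)) = fun s => F (s.2 a) :=
    Sys.X_of_inv hY fun i h1 h2 s w => by
      simp [GS, h2, Function.update_of_ne (show a ≠ i by omega)]
  rw [Rg.Yv, YY, show a + 1 + n + 1 = a + (1 + (n + 1)) by ring, Sys.X_add, Sys.X_add, Sys.X_add,
    zero_add, e1, e2, show (GS (a + 1 + n) I ν).X 1 a (fun s => F (s.2 a)) = fun _ =>
      (GS (a + 1 + n) I ν).T a (fun s => F (s.2 a)) (s0 I Cf) from funext fun s =>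
      mul_left_cancel₀ (by positivity) (exp_injective ((e4 s).trans (e4 _).symm)), Sys.X_const hY]
  exact e4 _

lemma Kf_wL (b : ℝ) (a l : ℕ) (σ τ : Cf) :
    Kf x (wL I b a) l σ τ = (if a < l then b else 0) * ∑ i, x σ i * x τ i := by
  simp [Kf, wL, mul_sum]

lemma tot_wL {a : ℕ} (ha : a < k) (b : ℝ) : tot (wL I b a) k = Fintype.card I * b := by
  simp [tot, wL, ha]

lemma Yv_nonneg (hx : Sg ν x) (hk : 0 < k) {w : ℕ → I → ℝ} (hw : ∀ j < k, ∀ i, 0 ≤ w j i) :
    0 ≤ (Sp x).Yv k ν w := by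
  have := hx.prob
  have hk' : (0 : ℝ) < k := by exact_mod_cast hk
  have h := cmp2 hx hx hk (w := 0) (fun _ _ _ => le_rfl) hw (fun _ => tot w k) fun l hl σ τ => by
    simp only [Kf, Pi.zero_apply, sum_const_zero, zero_mul, sub_zero, tot]
    refine sum_le_sum fun i _ => (mul_le_of_le_one_right (sum_nonneg fun j hj =>
      hw j ((mem_range.1 hj).trans hl) i) ((le_abs_self _).trans_eq ?_)).trans
      (sum_le_sum_of_subset_of_nonneg (range_mono hl.le) fun j hj _ => hw j (mem_range.1 hj) i)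
    rw [abs_mul, hx.abs, hx.abs, one_mul]
  have e : (Sp x).Hv k 0 = fun _ => 0 := funext fun s => by simp [GradAux.Hv_Sp]
  rw [Rg.Yv, e, YY, Sys.X_const (gs_ok hk), sum_const, card_range, nsmul_eq_mul,
    show (k : ℝ) * tot w k / (2 * k) = tot w k / 2 by field_simp] at h
  simpa [tot] using h

end Gen

abbrev Cf (N : ℕ) : Type := Fin N → Bool

abbrev Pr (N : ℕ) : Type := {p : Fin N × Fin N // p.1 < p.2}

def νN (N : ℕ) : Measure (Cf N) := Measure.pi fun _ => νB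

variable {N k : ℕ} {β : ℝ}

def sg (σ : Cf N) (i : Fin N) : ℝ := xB (σ i) ()

def xP (σ : Cf N) (p : Pr N) : ℝ := sg σ p.1.1 * sg σ p.1.2

def xS (σ : Cf N) : Pr N ⊕ Fin N → ℝ := Sum.elim (xP σ) (sg σ)

def dot (σ τ : Cf N) : ℝ := ∑ i, sg σ i * sg τ i

def wK (N : ℕ) (b : ℝ) (u : ℕ → ℝ) (j : ℕ) : Pr N ⊕ Fin N → ℝ :=
  Sum.elim (wL _ b 0 j) fun _ => u j

/-- free energy of the perturbed model -/
def FK (k N : ℕ) (b : ℝ) (u : ℕ → ℝ) : ℝ := (Sp xS).Yv k (νN N) (wK N b u)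

/-- free energy with the disorder on the level `a` -/
def YP (k N : ℕ) (b : ℝ) (a : ℕ) : ℝ := (Sp xP).Yv k (νN N) (wL _ b a)

instance : IsProbabilityMeasure νB := spin_B.prob

instance : IsProbabilityMeasure (νN N) := by unfold νN; infer_instance

lemma xB_sq (b : Bool) : xB b () ^ 2 = 1 := by cases b <;> simp [xB]

lemma sg_sq (σ : Cf N) (i : Fin N) : sg σ i ^ 2 = 1 := xB_sq _

lemma sg_P : Sg (νN N) xP :=
  ⟨inferInstance, Measurable.of_discrete, fun σ p => by rw [xP, mul_pow, sg_sq, sg_sq, one_mul]⟩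

lemma sg_S : Sg (νN N) xS := ⟨inferInstance, Measurable.of_discrete, fun σ i => by
  rcases i with i | i
  exacts [sg_P.sq σ i, sg_sq σ i]⟩

lemma sg_1 : Sg (νN N) sg := ⟨inferInstance, Measurable.of_discrete, sg_sq⟩

lemma pair_sum (a : Fin N → ℝ) :
    ∑ p : Pr N, a p.1.1 * a p.1.2 = ((∑ i, a i) ^ 2 - ∑ i, a i ^ 2) / 2 := by
  rw [← sum_subtype (univ.filter fun p : Fin N × Fin N => p.1 < p.2) (by simp)
    fun p => a p.1 * a p.2, sum_filter, Fintype.sum_prod_type, sq, sum_mul_sum]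
  have e : ∑ i, ∑ j, (if i < j then a i * a j else 0) =
      ∑ i, ∑ j, (if j < i then a i * a j else 0) := by
    rw [sum_comm]
    simp only [mul_comm]
  have e2 : ∑ i, ∑ j, a i * a j = ∑ i, ∑ j, (if i < j then a i * a j else 0) +
      ∑ i, ∑ j, (if j < i then a i * a j else 0) + ∑ i, ∑ j, if i = j then a i * a j else 0 := by
    simp only [← sum_add_distrib]
    refine sum_congr rfl fun i _ => sum_congr rfl fun j _ => ?_
    rcases lt_trichotomy i j with h | h | h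
    exacts [by simp [h, h.ne, h.not_gt], by simp [h], by simp [h, h.ne', h.not_gt]]
  simp only [sum_ite_eq, mem_univ, if_true, ← sq] at e2
  linarith

lemma sum_xP (σ τ : Cf N) : ∑ p, xP σ p * xP τ p = (dot σ τ ^ 2 - N) / 2 := by
  have h := pair_sum fun i => sg σ i * sg τ i
  simp only [mul_pow, sg_sq, one_mul, sum_const, card_univ, Fintype.card_fin, nsmul_eq_mul,
    mul_one] at h
  rw [dot, ← h]
  exact sum_congr rfl fun p _ => by unfold xP; ring

lemma card_Pr : (Fintype.card (Pr N) : ℝ) = (N ^ 2 - N) / 2 := by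
  simpa using pair_sum (N := N) fun _ => 1

lemma abs_dot (σ τ : Cf N) : |dot σ τ| ≤ N := (abs_sum_le_sum_abs _ _).trans_eq (by
  simp [abs_mul, sg_1.abs])

lemma Kf_wK (b : ℝ) (u : ℕ → ℝ) (l : ℕ) (σ τ : Cf N) : Kf xS (wK N b u) l σ τ =
    (if 0 < l then b else 0) * ((dot σ τ ^ 2 - N) / 2) + (∑ j ∈ range l, u j) * dot σ τ := by
  rw [← sum_xP, ← Kf_wL]
  simp [Kf, wK, xS, dot, mul_sum]

lemma tot_wK (hk : 0 < k) (b : ℝ) (u : ℕ → ℝ) :
    tot (wK N b u) k = (N ^ 2 - N) / 2 * b + N * ∑ j ∈ range k, u j := by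
  rw [← card_Pr, ← tot_wL hk]
  simp [tot, wK]

lemma wL_nonneg {I : Type} {b : ℝ} (hb : 0 ≤ b) (a j : ℕ) (i : I) : 0 ≤ wL I b a j i := by
  unfold wL; split_ifs <;> simp [hb]

lemma wK_nonneg {b : ℝ} (hb : 0 ≤ b) {u : ℕ → ℝ} {j : ℕ} (hu : 0 ≤ u j) (i : Pr N ⊕ Fin N) :
    0 ≤ wK N b u j i := by
  rcases i with i | i
  exacts [wL_nonneg hb _ _ i, hu]

lemma FK_lip (hk : 0 < k) {b : ℝ} (hb : 0 ≤ b) {u u' : ℕ → ℝ} (hu : ∀ j, 0 ≤ u j)
    (hu' : ∀ j, 0 ≤ u' j) : FK k N b u' - FK k N b u ≤ 2 * (N * ∑ j ∈ range k, |u' j - u j|) := by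
  have h := Rg.Yv_lip (ν := νN N) sg_S.ok le_rfl hk (fun j _ => wK_nonneg hb (hu j))
    (fun j _ => wK_nonneg hb (hu' j)) (B := N * ∑ j ∈ range k, |u' j - u j|) fun σ => by
      simp [wK, Sp, sg_S.sq]
  rw [one_pow, mul_one] at h
  exact (le_abs_self _).trans h

lemma FK_zero (hk : 0 < k) (b : ℝ) : FK k N b 0 = YP k N b 0 :=
  Rg.Yv_ext_eq sg_P.ok hk Sum.inl_injective rfl (fun _ => rfl) (fun _ _ => rfl) (fun _ _ _ => rfl)
    fun j _ i hi => by rcases i with i | i <;> simp [wK] at hi ⊢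

lemma YP_eq {a : ℕ} (ha : a < k) (b : ℝ) : YP k N b a = (((a : ℝ) + 1) / k)⁻¹ *
    log (∫ g, exp ((((a : ℝ) + 1) / k) * FG (fun p σ => √b * xP σ p) g) ∂γ (Pr N)) - N * log 2 := by
  have hk : (0 : ℝ) < k := by exact_mod_cast (by omega : 0 < k)
  have hm : 0 < ((a : ℝ) + 1) / k := by positivity
  have e : ∀ g : Pr N → ℝ, log (∫ σ, exp (∑ i, g i * (√b * xP σ i)) ∂νN N) =
      FG (fun p σ => √b * xP σ p) g - N * log 2 := fun g => by
    rw [integral_fintype Integrable.of_finite, FG, lse, ← log_pow, ← log_div (Z_pos _).ne'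
      (by positivity), sum_div]
    congr 1
    refine sum_congr rfl fun σ _ => ?_
    simp [measureReal_def, νN, id_νB, Finset.sum_apply, div_eq_inv_mul]
  have h := Yv_one (sg_P (N := N)) ha b
  simp only [e, mul_sub, exp_sub, integral_div] at h
  rw [← (eq_div_iff (exp_pos _).ne').1 h, ← exp_add, log_exp, YP]
  field_simp
  ring

theorem guerra (hβ : 0 < β) (hN : 0 < N) {j : ℕ} (hj : j < k) {r : ℕ → ℝ} (hr : AdmR r)
    (h0 : ∀ l ≤ j, r l = 0) : YP k N (β ^ 2 / N) j ≤ N * PK β k r := by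
  have hk : 0 < k := by omega
  have hk' : (0 : ℝ) < k := by exact_mod_cast hk
  have hN' : (0 : ℝ) < N := by exact_mod_cast hN
  have : Nonempty (Fin N) := ⟨⟨0, hN⟩⟩
  have hx : Sg (νN N) (blk (Fin N) xB) := ⟨inferInstance, Measurable.of_discrete, fun σ i => xB_sq _⟩
  have h := cmp2 sg_P hx hk (w := wL _ (β ^ 2 / N) j) (w' := wS _ k r)
    (fun _ _ => wL_nonneg (by positivity) _ _) (fun j _ => GradAux.wS_nonneg hr.2 j)
    (fun l => N * r l ^ 2 / (2 * β ^ 2) + if j < l then β ^ 2 / 2 else 0) fun l hl σ τ => by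
      have e : Kf (blk (Fin N) xB) (wS _ k r) l σ τ = r l * dot σ τ := by
        simp only [Kf, wS, GradAux.tele r hl, hr.1, sub_zero, Fintype.sum_prod_type, dot, mul_sum,
          univ_unique, sum_singleton]
        rfl
      rw [e, Kf_wL, sum_xP]
      split_ifs with h
      · have : N * r l ^ 2 / (2 * β ^ 2) + β ^ 2 / 2 - (r l * dot σ τ - β ^ 2 / N *
          ((dot σ τ ^ 2 - N) / 2)) = (N * r l - β ^ 2 * dot σ τ) ^ 2 / (2 * β ^ 2 * N) := by
          field_simp; ring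
        have h2 : 0 ≤ (N * r l - β ^ 2 * dot σ τ) ^ 2 / (2 * β ^ 2 * N) := by positivity
        linarith
      · simp [h0 l (not_lt.1 h)]
  have e1 := XN_blk spin_B hk (Fin N) r
  have e2 : tot (wS (Fin N × Unit) k r) k = N * r (k - 1) := by
    simp [tot, wS, GradAux.tele' r hk, hr.1]
  have e3 : ∑ l ∈ range k, (if j < l then β ^ 2 / 2 else 0) ≤ k * (β ^ 2 / 2) := by
    have := sum_le_card_nsmul (range k) _ (β ^ 2 / 2) fun l _ =>
      show (if j < l then β ^ 2 / 2 else 0) ≤ _ by split_ifs; exacts [le_rfl, by positivity]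
    simpa using this
  rw [XN, Fintype.card_prod, Fintype.card_unit, mul_one, Fintype.card_fin, sub_eq_iff_eq_add,
    div_eq_iff hN'.ne'] at e1
  rw [e2, tot_wL hj, card_Pr, νN, e1, sum_add_distrib, add_div] at h
  have e4 := div_le_div_of_nonneg_right e3 (by positivity : (0 : ℝ) ≤ 2 * k)
  have e5 : (∑ l ∈ range k, N * r l ^ 2 / (2 * β ^ 2)) / (2 * k) =
      N * (1 / (4 * k * β ^ 2) * ∑ l ∈ range k, r l ^ 2) := by
    rw [← sum_div, ← mul_sum]; field_simp; ring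
  rw [show k * (β ^ 2 / 2) / (2 * k) = β ^ 2 / 4 by field_simp; ring] at e4
  rw [show ((N : ℝ) ^ 2 - N) / 2 * (β ^ 2 / N) = N * β ^ 2 / 2 - β ^ 2 / 2 by field_simp] at h
  unfold YP νN PK
  linarith

end

end Vale.Agent.P146
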