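import Vale.Agent.P146.OneD

/-! The variational problem: the cost of the constraint on the lowest levels. -/

set_option linter.all false

namespace Vale.Agent.P146

open MeasureTheory ProbabilityTheory Real Finset Filter Topology Vale.Agent.P146M

noncomputable section

/-- the `k` level Parisi functional -/
def PK (β : ℝ) (k : ℕ) (r : ℕ → ℝ) : ℝ :=
  β ^ 2 / 4 + XN k νB xB r + (1 / (4 * k * β ^ 2)) * ∑ l ∈ range k, r l ^ 2

variable {β : ℝ} {k : ℕ} {r r' : ℕ → ℝ}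

lemma adm_mix (hr : AdmR r) (hr' : AdmR r') {t : ℝ} (h0 : 0 ≤ t) (h1 : t ≤ 1) :
    AdmR fun l => r l + t * (r' l - r l) := ⟨by simp [hr.1, hr'.1], fun a b h => by
  nlinarith [mul_le_mul_of_nonneg_left (hr'.2 h) h0,
    mul_le_mul_of_nonneg_left (hr.2 h) (sub_nonneg.2 h1)]⟩

lemma adm_nonneg (hr : AdmR r) (l : ℕ) : 0 ≤ r l := hr.1 ▸ hr.2 (Nat.zero_le l)

lemma PK_sub (hβ : 0 < β) (hk : 0 < k) (hr : AdmR r) (hr' : AdmR r') :
    ∃ t ∈ Set.Ioo (0 : ℝ) 1, PK β k r' - PK β k r = (1 / (2 * (k : ℝ))) * ∑ l ∈ range k,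
      (r' l - r l) * ((r' l + r l) / (2 * β ^ 2) -
        pS k νB xB (fun l => r l + t * (r' l - r l)) l) := by
  obtain ⟨t, ht, e⟩ := XN_mvt spin_B hk hr hr'
  refine ⟨t, ht, ?_⟩
  have hk' : (0 : ℝ) < k := by exact_mod_cast hk
  rw [PK, PK, sub_eq_iff_eq_add.1 e, pairing]
  simp only [mul_sum, ← sub_eq_iff_eq_add']
  rw [show ∀ a b c d e : ℝ, a + (-b + c) + d - (a + c + e) = d - e - b from fun _ _ _ _ _ => by ring,
    ← sum_sub_distrib, ← sum_sub_distrib]
  refine sum_congr rfl fun l _ => ?_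
  field_simp
  ring

lemma PK_nonneg (hβ : 0 < β) (hk : 0 < k) (hr : AdmR r) : 0 ≤ PK β k r := by
  obtain ⟨t, -, e⟩ := PK_sub hβ hk (r := 0) ⟨rfl, monotone_const⟩ hr
  have hk' : (0 : ℝ) < k := by exact_mod_cast hk
  have e0 : PK β k 0 = β ^ 2 / 4 := by simp [PK, XN_zero spin_B hk]
  have h := card_nsmul_le_sum (range k) _ (-(β ^ 2 / 2)) fun l _ =>
    show -(β ^ 2 / 2) ≤ (r l - (0 : ℕ → ℝ) l) * ((r l + (0 : ℕ → ℝ) l) / (2 * β ^ 2) -
      pS k νB xB (fun l => (0 : ℕ → ℝ) l + t * (r l - (0 : ℕ → ℝ) l)) l) from by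
      have h1 := mul_le_mul_of_nonneg_left (pS_le_one spin_B hk
        (fun l => (0 : ℕ → ℝ) l + t * (r l - (0 : ℕ → ℝ) l)) l) (adm_nonneg hr l)
      have h2 : r l * (r l / (2 * β ^ 2)) - r l + β ^ 2 / 2 = (r l - β ^ 2) ^ 2 / (2 * β ^ 2) := by
        field_simp; ring
      have h3 : 0 ≤ (r l - β ^ 2) ^ 2 / (2 * β ^ 2) := by positivity
      simp only [Pi.zero_apply, sub_zero, add_zero] at h1 ⊢
      nlinarith
  rw [card_range, nsmul_eq_mul] at h
  have h4 := mul_le_mul_of_nonneg_left h (by positivity : 0 ≤ 1 / (2 * (k : ℝ)))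
  rw [show 1 / (2 * (k : ℝ)) * (k * -(β ^ 2 / 2)) = -(β ^ 2 / 4) by field_simp; ring] at h4
  linarith

lemma pS_mono (hk : 0 < k) (r : ℕ → ℝ) {j l : ℕ} (hj : 0 < j) (hl : j ≤ l) (hlk : l < k) :
    pS k νB xB r j ≤ pS k νB xB r l := by
  simpa [pathQ, hj.ne', hlk, hl.trans_lt hlk, (hj.trans_le hl).ne'] using
    (admQ_pS spin_B hk r).2.1 hl

lemma mono_of_quad {h : ℝ → ℝ} {c : ℝ}
    (H : ∀ s s', 0 ≤ s → s ≤ s' → s' ≤ 1 → h s - h s' ≤ c * (s' - s) ^ 2) : h 0 ≤ h 1 := by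
  have h1 : ∀ n : ℕ, h 0 - h 1 ≤ c * (1 / ((n : ℝ) + 1)) := fun n => by
    have hn : (0 : ℝ) < n + 1 := by positivity
    have e := sum_range_sub' (fun i : ℕ => h (i / (n + 1))) (n + 1)
    have h2 := sum_le_card_nsmul (range (n + 1)) _ (c * (1 / ((n : ℝ) + 1)) ^ 2) fun i hi =>
      show h (i / (n + 1)) - h (((i + 1 : ℕ) : ℝ) / (n + 1)) ≤ _ from by
        refine (H _ _ (by positivity) (div_le_div_of_nonneg_right (by simp) hn.le) ?_).trans_eq ?_
        · rw [div_le_one hn]; exact_mod_cast mem_range.1 hi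
        · rw [← sub_div]; simp
    rw [e, card_range, nsmul_eq_mul] at h2
    simp only [Nat.cast_zero, zero_div, Nat.cast_add, Nat.cast_one, div_self hn.ne'] at h2
    refine h2.trans_eq ?_
    field_simp
  have h2 := ge_of_tendsto' (tendsto_one_div_add_atTop_nhds_zero_nat.const_mul c) h1
  simp only [mul_zero] at h2
  linarith

/-- lowering the path to zero below the level `j` -/
lemma lower (hβ : 0 < β) (hr : AdmR r) {j : ℕ} (hj : 0 < j) (hjk : j < k) {T δ : ℝ}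
    (hT : r j ≤ T) (hδ : 0 ≤ δ) (hp : β ^ 2 * pS k νB xB r j ≤ r j + δ) :
    PK β k (fun l => if l < j then 0 else r l) ≤
      PK β k r + (j / k : ℝ) * (T * (Ct T * √(j / k)) + T * δ / (2 * β ^ 2)) := by
  have hk : 0 < k := hj.trans hjk
  have hk' : (0 : ℝ) < k := by exact_mod_cast hk
  have hb : 0 < β ^ 2 := by positivity
  have T0 : 0 ≤ T := (adm_nonneg hr j).trans hT
  set E := T * (Ct T * √(j / k)) + T * δ / (2 * β ^ 2) with hE
  have E0 : 0 ≤ T * (Ct T * √(j / k)) := mul_nonneg T0 (mul_nonneg (Ct_nonneg T) (sqrt_nonneg _))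
  set ρ : ℝ → ℕ → ℝ := fun s l => if l < j then s * r l else r l with hρ
  have aρ : ∀ s, 0 ≤ s → s ≤ 1 → AdmR (ρ s) := fun s h0 h1 =>
    ⟨by simp [ρ, hr.1], fun a b h => by
      have := hr.2 h
      have := adm_nonneg hr a
      simp only [ρ]
      split_ifs <;> first | omega | nlinarith⟩
  have key : ∀ u, 0 ≤ u → u ≤ 1 → ∀ l < j,
      r l * pS k νB xB (ρ u) l ≤ u * r l ^ 2 / β ^ 2 + 2 * E := fun u h0 h1 l hl => by
    have a0 := adm_nonneg hr l
    have a1 := hr.2 hl.le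
    have E1 : 0 ≤ T * δ / (2 * β ^ 2) := by positivity
    rcases a0.eq_or_lt with h | h
    · rw [← h]; simp only [zero_mul, ne_eq, OfNat.ofNat_ne_zero, not_false_eq_true, zero_pow,
        mul_zero, zero_div, zero_add]; positivity
    have a2 := key1 hr (aρ u h0 h1) hj hjk hl.le (fun i hi => if_neg (by omega)) hT
    simp only [ρ, if_pos hl] at a2
    have a3 : u * r l * pS k νB xB r j ≤ u * r l * ((r j + δ) / β ^ 2) :=
      mul_le_mul_of_nonneg_left (by rw [le_div_iff₀ hb]; linarith) (by positivity)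
    refine le_of_mul_le_mul_left ?_ (h.trans_le a1)
    have a4 := mul_le_mul_of_nonneg_left (a2.trans (add_le_add_left a3 _)) a0
    have a5 : u * r l * r l * δ / β ^ 2 ≤ r j * T * δ / β ^ 2 := by
      refine div_le_div_of_nonneg_right (mul_le_mul_of_nonneg_right (mul_le_mul
        ((mul_le_of_le_one_left a0 h1).trans a1) (a1.trans hT) a0 (a0.trans a1)) hδ) hb.le
    have a6 := mul_le_mul_of_nonneg_right a1 E0
    have a7 : r j * (u * r l ^ 2 / β ^ 2 + 2 * E) = r l * (u * r l * (r j / β ^ 2)) +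
        r j * T * δ / β ^ 2 + 2 * (r j * (T * (Ct T * √(j / k)))) := by
      rw [hE]; field_simp; ring
    have a8 : r l * (u * r l * ((r j + δ) / β ^ 2)) = r l * (u * r l * (r j / β ^ 2)) +
        u * r l * r l * δ / β ^ 2 := by ring
    simp only [ρ]
    nlinarith
  have h := mono_of_quad (h := fun s => PK β k (ρ s) + s * ((j / k : ℝ) * E))
    (c := T ^ 2 / β ^ 2) fun s s' h0 h1 h2 => by
      obtain ⟨t, ht, e⟩ := PK_sub hβ hk (aρ s h0 (h1.trans h2)) (aρ s' (h0.trans h1) h2)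
      have d0 := sub_nonneg.2 h1
      have u0 : s ≤ s + t * (s' - s) := by nlinarith [ht.1]
      have u1 : s + t * (s' - s) ≤ s' := by nlinarith [ht.2]
      rw [show (fun l => ρ s l + t * (ρ s' l - ρ s l)) = ρ (s + t * (s' - s)) from
        funext fun l => by simp only [ρ]; split_ifs <;> ring,
        ← sum_range_add_sum_Ico _ hjk.le, sum_eq_zero (s := Ico j k) fun l hl => by
          simp [ρ, not_lt.2 (mem_Ico.1 hl).1], add_zero] at e
      have b := card_nsmul_le_sum (range j) _ (-((s' - s) * (2 * E + (s' - s) * T ^ 2 / β ^ 2)))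
        fun l hl => show _ ≤ (ρ s' l - ρ s l) * ((ρ s' l + ρ s l) / (2 * β ^ 2) -
          pS k νB xB (ρ (s + t * (s' - s))) l) from by
          have hl := mem_range.1 hl
          have c1 := key _ (h0.trans u0) (u1.trans h2) l hl
          have c2 : r l ^ 2 ≤ T ^ 2 := pow_le_pow_left₀ (adm_nonneg hr l) ((hr.2 hl.le).trans hT) 2
          have c3 : (s + t * (s' - s)) * r l ^ 2 / β ^ 2 ≤
              (s' + s) * r l ^ 2 / (2 * β ^ 2) + (s' - s) * T ^ 2 / β ^ 2 := by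
            rw [← sub_le_iff_le_add', show (s + t * (s' - s)) * r l ^ 2 / β ^ 2 -
              (s' + s) * r l ^ 2 / (2 * β ^ 2) = (s + t * (s' - s) - (s' + s) / 2) * r l ^ 2 / β ^ 2
              by field_simp]
            refine div_le_div_of_nonneg_right ?_ hb.le
            nlinarith [sq_nonneg (r l)]
          have c4 := mul_le_mul_of_nonneg_left (c1.trans (add_le_add_left c3 _)) d0
          simp only [ρ, if_pos hl] at c4 ⊢
          have c5 : (s' * r l - s * r l) * ((s' * r l + s * r l) / (2 * β ^ 2)) =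
              (s' - s) * ((s' + s) * r l ^ 2 / (2 * β ^ 2)) := by ring
          nlinarith
      rw [card_range, nsmul_eq_mul] at b
      have b2 := mul_le_mul_of_nonneg_left b (by positivity : 0 ≤ 1 / (2 * (k : ℝ)))
      have b3 : (j / k : ℝ) ≤ 1 := by rw [div_le_one hk']; exact_mod_cast hjk.le
      have b4 : 1 / (2 * (k : ℝ)) * (j * -((s' - s) * (2 * E + (s' - s) * T ^ 2 / β ^ 2))) =
          -((s' - s) * (j / k * E)) - j / k * (T ^ 2 / β ^ 2 * (s' - s) ^ 2) / 2 := by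
        field_simp; ring
      have b5 : 0 ≤ T ^ 2 / β ^ 2 * (s' - s) ^ 2 := by positivity
      nlinarith
  simp only [ρ, zero_mul, add_zero, one_mul, ite_self] at h
  exact h

/-- a near minimiser with a one sided stationarity property at the level `j` -/
lemma near (hβ : 0 < β) {j : ℕ} (hj : 0 < j) (hjk : j < k) {δ : ℝ} (hδ : 0 < δ) (hδ1 : δ ≤ 1) :
    ∃ r, AdmR r ∧ r j ≤ β ^ 2 + 1 ∧ β ^ 2 * pS k νB xB r j ≤ r j + (1 + 2 * β ^ 2) * δ ∧
      ∀ r', AdmR r' → (∀ l, r' l ≤ β ^ 2 + 1) →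
        PK β k r ≤ PK β k r' + (1 + (β ^ 2 + 1) / β ^ 2) * δ := by
  have hk : 0 < k := hj.trans hjk
  have hk' : (1 : ℝ) ≤ k := by exact_mod_cast hk
  have hb : 0 < β ^ 2 := by positivity
  set S := {x | ∃ r, (AdmR r ∧ ∀ l, r l ≤ β ^ 2 + 1) ∧ PK β k r = x}
  have bS : BddBelow S := ⟨0, fun x ⟨r, h, e⟩ => e ▸ PK_nonneg hβ hk h.1⟩
  have hV : ∀ r, AdmR r → (∀ l, r l ≤ β ^ 2 + 1) → sInf S ≤ PK β k r := fun r a b =>
    csInf_le bS ⟨r, ⟨a, b⟩, rfl⟩
  obtain ⟨_, ⟨r, ⟨hr, hT⟩, rfl⟩, h⟩ := Real.lt_sInf_add_pos (s := S)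
    ⟨_, 0, ⟨⟨rfl, monotone_const⟩, fun _ => by simp; positivity⟩, rfl⟩
    (by positivity : 0 < δ ^ 2 / k)
  have hε : δ ^ 2 / k ≤ δ := by rw [div_le_iff₀ (by positivity)]; nlinarith
  have q0 : 0 ≤ (β ^ 2 + 1) / β ^ 2 * δ := by positivity
  by_cases hc : β ^ 2 ≤ r j
  · refine ⟨r, hr, hT j, ?_, fun r' a b => by linarith [hV r' a b]⟩
    nlinarith [pS_le_one spin_B hk r j]
  set r1 : ℕ → ℝ := fun l => if l < j then r l else max (r l) (r j + δ) with hr1
  have a1 : AdmR r1 := ⟨by simp [r1, hj, hr.1], fun a b h => by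
    simp only [r1]
    split_ifs
    exacts [hr.2 h, (hr.2 h).trans (le_max_left _ _), by omega, max_le_max_right _ (hr.2 h)]⟩
  have b1 : ∀ l, r1 l ≤ β ^ 2 + 1 := fun l => by
    simp only [r1]
    split_ifs
    exacts [hT l, max_le (hT l) (by linarith)]
  have d0 : ∀ l, 0 ≤ r1 l - r l := fun l => by simp only [r1]; split_ifs <;> simp
  have d1 : ∀ l, r1 l - r l ≤ δ := fun l => by
    simp only [r1]
    split_ifs with h
    · simp [hδ.le]
    · rw [sub_le_iff_le_add']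
      exact max_le (by linarith) (by linarith [hr.2 (not_lt.1 h)])
  have dj : r1 j - r j = δ := by simp [r1, hδ.le]
  obtain ⟨t, ht, e⟩ := PK_sub hβ hk hr a1
  set r2 : ℕ → ℝ := fun l => r l + t * (r1 l - r l) with hr2
  have a2 : AdmR r2 := adm_mix hr a1 ht.1.le ht.2.le
  have c0 : ∀ l, r l ≤ r2 l := fun l => le_add_of_nonneg_right (mul_nonneg ht.1.le (d0 l))
  have c1 : ∀ l, r2 l ≤ r1 l := fun l => by simp only [r2]; nlinarith [d0 l, ht.2]
  refine ⟨r2, a2, (c1 j).trans (b1 j), ?_, fun r' a b => ?_⟩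
  · by_contra hn
    set B := (r j + δ) / β ^ 2 - pS k νB xB r2 j with hB
    have B0 : B < -(2 * δ) := by
      rw [hB, sub_lt_iff_lt_add, div_lt_iff₀ hb]
      nlinarith [c0 j]
    have s1 : ∑ l ∈ range k, (r1 l - r l) * ((r1 l + r l) / (2 * β ^ 2) - pS k νB xB r2 l) ≤
        ∑ l ∈ range k, (r1 l - r l) * B := sum_le_sum fun l hl => by
      rcases (d0 l).eq_or_lt with h | h
      · simp [← h]
      refine mul_le_mul_of_nonneg_left ?_ h.le
      by_cases hl' : l < j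
      · simp [r1, hl'] at h
      have f1 : r l < r j + δ := by simpa [r1, hl'] using h
      have f2 : r1 l = r j + δ := by simp [r1, hl', f1.le]
      have f3 := pS_mono hk r2 hj (not_lt.1 hl') (mem_range.1 hl)
      have f4 : (r1 l + r l) / (2 * β ^ 2) ≤ (r j + δ) / β ^ 2 := by
        rw [div_le_div_iff₀ (by positivity) hb]; nlinarith
      linarith
    have s2 := single_le_sum (fun l _ => d0 l) (mem_range.2 hjk)
    rw [← sum_mul] at s1
    have s3 := mul_le_mul_of_nonneg_left s1 (by positivity : 0 ≤ 1 / (2 * (k : ℝ)))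
    have s4 : 1 / (2 * (k : ℝ)) * ((∑ l ∈ range k, (r1 l - r l)) * B) ≤
        1 / (2 * (k : ℝ)) * -(2 * δ ^ 2) := mul_le_mul_of_nonneg_left (by nlinarith) (by positivity)
    rw [show 1 / (2 * (k : ℝ)) * -(2 * δ ^ 2) = -(δ ^ 2 / k) by field_simp] at s4
    linarith [hV r1 a1 b1]
  · obtain ⟨t', -, e'⟩ := PK_sub hβ hk hr a2
    have s1 := sum_le_card_nsmul (range k) _ ((β ^ 2 + 1) / β ^ 2 * δ) fun l _ =>
      show (r2 l - r l) * ((r2 l + r l) / (2 * β ^ 2) -
        pS k νB xB (fun l => r l + t' * (r2 l - r l)) l) ≤ _ from by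
        have f1 := pS_nonneg spin_B hk (fun l => r l + t' * (r2 l - r l)) l
        have f2 : (r2 l + r l) / (2 * β ^ 2) ≤ (β ^ 2 + 1) / β ^ 2 := by
          rw [div_le_div_iff₀ (by positivity) hb]; nlinarith [c1 l, b1 l, hT l]
        have f3 : 0 ≤ (β ^ 2 + 1) / β ^ 2 := by positivity
        nlinarith [c0 l, c1 l, d1 l]
    rw [card_range, nsmul_eq_mul] at s1
    have s3 := mul_le_mul_of_nonneg_left s1 (by positivity : 0 ≤ 1 / (2 * (k : ℝ)))
    rw [show 1 / (2 * (k : ℝ)) * (k * ((β ^ 2 + 1) / β ^ 2 * δ)) = (β ^ 2 + 1) / β ^ 2 * δ / 2 by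
      field_simp] at s3
    linarith [hV r' a b]

theorem gapB (hβ : 0 < β) : ∃ C, ∀ k j : ℕ, 0 < j → j < k → ∃ r, AdmR r ∧ (∀ l < j, r l = 0) ∧
    ∀ r', AdmR r' → (∀ l, r' l ≤ β ^ 2) → PK β k r ≤ PK β k r' + C * ((j / k) * √(j / k)) := by
  set T := β ^ 2 + 1
  refine ⟨T * Ct T + T * (1 + 2 * β ^ 2) / (2 * β ^ 2) + (1 + T / β ^ 2), fun k j hj hjk => ?_⟩
  have hk' : (0 : ℝ) < k := by exact_mod_cast hj.trans hjk
  have hj' : (0 : ℝ) < j := by exact_mod_cast hj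
  set m : ℝ := j / k
  have m0 : 0 < m := by positivity
  have m1 : m ≤ 1 := by rw [div_le_one hk']; exact_mod_cast hjk.le
  have s0 := sqrt_pos.2 m0
  have s1 : √m ≤ 1 := sqrt_le_one.2 m1
  obtain ⟨r, hr, h1, h2, h3⟩ := near hβ hj hjk (mul_pos m0 s0) (mul_le_one₀ m1 s0.le s1)
  refine ⟨fun l => if l < j then 0 else r l, ⟨if_pos hj, fun a b h => ?_⟩, fun l hl => if_pos hl,
    fun r' a b => ?_⟩
  · simp only
    split_ifs
    exacts [le_rfl, adm_nonneg hr b, by omega, hr.2 h]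
  have h4 := lower hβ hr hj hjk h1 (by positivity) h2
  have h5 := h3 r' a fun l => (b l).trans (by linarith)
  have h6 : m * (T * ((1 + 2 * β ^ 2) * (m * √m)) / (2 * β ^ 2)) ≤
      T * ((1 + 2 * β ^ 2) * (m * √m)) / (2 * β ^ 2) := mul_le_of_le_one_left (by positivity) m1
  have h7 : T * ((1 + 2 * β ^ 2) * (m * √m)) / (2 * β ^ 2) =
      T * (1 + 2 * β ^ 2) / (2 * β ^ 2) * (m * √m) := by ring
  nlinarith

end

end Vale.Agent.P146
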